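import Mathlib

/-!
P315, row C-STR: the cost of the cheapest mesh route through a slab.

`E p q` = allowed edges of a row (mesh points, bounded speed), `W i p q` = cost of the edge from `p`
to `q` in row `i`, `k` = price of a lateral shift by one position at a row boundary. `cost` is the
price of the cheapest route through the rows `i, …, i + m - 1` from `u` to `v`.
-/

set_option autoImplicit false

namespace Vale.Agent.P315.H140

/-- Price of a lateral shift from `u` to `v`. -/
def sd (k u v : ℕ) : ℕ := k * Nat.dist u v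

@[simp] theorem sd_self (k u : ℕ) : sd k u u = 0 := by simp [sd]

theorem sd_comm (k u v : ℕ) : sd k u v = sd k v u := by simp [sd, Nat.dist_comm]

theorem sd_tri (k u v w : ℕ) : sd k u w ≤ sd k u v + sd k v w := by
  unfold sd
  rw [← Nat.mul_add]
  exact Nat.mul_le_mul_left _ (Nat.dist.triangle_inequality u v w)

/-- Price of the cheapest route through the rows `i, …, i + m - 1` from `u` to `v`. -/
noncomputable def cost (E : ℕ → ℕ → Prop) (k : ℕ) (W : ℕ → ℕ → ℕ → ℕ) (i : ℕ) :
    ℕ → ℕ → ℕ → ℕ
  | 0, u, v => sd k u v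
  | m + 1, u, v => sInf {x | ∃ p q, E p q ∧ x = cost E k W i m u p + W (i + m) p q + sd k q v}

section basic

variable {E : ℕ → ℕ → Prop} {k : ℕ} {W W' : ℕ → ℕ → ℕ → ℕ}

@[simp] theorem cost_zero (i u v : ℕ) : cost E k W i 0 u v = sd k u v := rfl

/-- Going one row further. -/
theorem cost_succ_le (i m u v : ℕ) {p q : ℕ} (h : E p q) :
    cost E k W i (m + 1) u v ≤ cost E k W i m u p + W (i + m) p q + sd k q v :=
  Nat.sInf_le ⟨p, q, h, rfl⟩

/-- The last row of a cheapest route. -/
theorem exists_last (hE : ∃ p q, E p q) (i m u v : ℕ) :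
    ∃ p q, E p q ∧
      cost E k W i (m + 1) u v = cost E k W i m u p + W (i + m) p q + sd k q v := by
  obtain ⟨p, q, h⟩ := hE
  exact Nat.sInf_mem (s := {x | ∃ p q, E p q ∧
    x = cost E k W i m u p + W (i + m) p q + sd k q v}) ⟨_, p, q, h, rfl⟩

/-- Lipschitz in the exit. -/
theorem cost_lip_right (hE : ∃ p q, E p q) (i m u v v' : ℕ) :
    cost E k W i m u v' ≤ cost E k W i m u v + sd k v v' := by
  cases m with
  | zero => simpa using sd_tri k u v v'
  | succ m =>
    obtain ⟨p, q, h, he⟩ := exists_last (k := k) (W := W) hE i m u v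
    have h1 := cost_succ_le (k := k) (W := W) i m u v' h
    have h2 := sd_tri k q v v'
    omega

/-- Lipschitz in the entry. -/
theorem cost_lip_left (hE : ∃ p q, E p q) (i m u u' v : ℕ) :
    cost E k W i m u' v ≤ sd k u' u + cost E k W i m u v := by
  induction m generalizing v with
  | zero => simpa using sd_tri k u' u v
  | succ m ih =>
    obtain ⟨p, q, h, he⟩ := exists_last (k := k) (W := W) hE i m u v
    have h1 := cost_succ_le (k := k) (W := W) i m u' v h
    have h2 := ih p
    omega

/-- Monotone in the edge costs. -/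
theorem cost_mono (hE : ∃ p q, E p q) (i m u v : ℕ)
    (h : ∀ j < m, ∀ p q, E p q → W (i + j) p q ≤ W' (i + j) p q) :
    cost E k W i m u v ≤ cost E k W' i m u v := by
  induction m generalizing v with
  | zero => simp
  | succ m ih =>
    obtain ⟨p, q, hpq, he⟩ := exists_last (k := k) (W := W') hE i m u v
    have h1 := cost_succ_le (k := k) (W := W) i m u v hpq
    have h2 := ih p (fun j hj => h j (by omega))
    have h3 := h m (by omega) p q hpq
    omega

/-- Subadditivity. -/
theorem cost_add (hE : ∃ p q, E p q) (i m m' u v w : ℕ) :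
    cost E k W i (m + m') u w ≤ cost E k W i m u v + cost E k W (i + m) m' v w := by
  induction m' generalizing w with
  | zero => simpa using cost_lip_right (k := k) (W := W) hE i m u v w
  | succ m' ih =>
    obtain ⟨p, q, hpq, he⟩ := exists_last (k := k) (W := W) hE (i + m) m' v w
    have h1 := cost_succ_le (k := k) (W := W) i (m + m') u w hpq
    have h2 := ih p
    rw [← Nat.add_assoc, he]
    rw [← Nat.add_assoc] at h1
    omega

/-- A cheapest route can be cut at every row boundary. -/
theorem exists_mid (hE : ∃ p q, E p q) (i m m' u w : ℕ) :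
    ∃ v, cost E k W i m u v + cost E k W (i + m) m' v w = cost E k W i (m + m') u w := by
  induction m' generalizing w with
  | zero => exact ⟨w, by simp⟩
  | succ m' ih =>
    obtain ⟨p, q, hpq, he⟩ := exists_last (k := k) (W := W) hE i (m + m') u w
    obtain ⟨v, hv⟩ := ih p
    refine ⟨v, le_antisymm ?_ ?_⟩
    · have h1 := cost_succ_le (k := k) (W := W) (i + m) m' v w hpq
      rw [← Nat.add_assoc m m' 1, he]
      rw [Nat.add_assoc i m m'] at h1
      omega
    · exact cost_add hE i m (m' + 1) u v w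

/-- The cost of one row. -/
theorem cost_one_le (i u v : ℕ) {p q : ℕ} (h : E p q) :
    cost E k W i 1 u v ≤ sd k u p + W i p q + sd k q v := by
  simpa using cost_succ_le (k := k) (W := W) i 0 u v h

/-- A route is at most as expensive as any way to serve the rows of a given path. -/
theorem cost_le_sum (hE : ∃ p q, E p q) (i m : ℕ) (a F : ℕ → ℕ)
    (h : ∀ j < m, cost E k W (i + j) 1 (a j) (a (j + 1)) ≤ F j) :
    cost E k W i m (a 0) (a m) ≤ ∑ j ∈ Finset.range m, F j := by
  induction m with
  | zero => simp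
  | succ m ih =>
    have h1 := cost_add (k := k) (W := W) hE i m 1 (a 0) (a m) (a (m + 1))
    have h2 := ih (fun j hj => h j (by omega))
    have h3 := h m (by omega)
    rw [Finset.sum_range_succ]
    omega

/-- The same with explicit edges. -/
theorem cost_le_sum' (hE : ∃ p q, E p q) (i m : ℕ) (a F : ℕ → ℕ)
    (h : ∀ j < m, ∃ p q, E p q ∧ sd k (a j) p + W (i + j) p q + sd k q (a (j + 1)) ≤ F j) :
    cost E k W i m (a 0) (a m) ≤ ∑ j ∈ Finset.range m, F j := by
  refine cost_le_sum hE i m a F (fun j hj => ?_)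
  obtain ⟨p, q, hpq, hle⟩ := h j hj
  exact (cost_one_le (i + j) (a j) (a (j + 1)) hpq).trans hle

/-- Subadditivity over `M` slabs of `T` rows. -/
theorem cost_slabs (hE : ∃ p q, E p q) (i M T : ℕ) (a : ℕ → ℕ) :
    cost E k W i (M * T) (a 0) (a M) ≤
      ∑ j ∈ Finset.range M, cost E k W (i + j * T) T (a j) (a (j + 1)) := by
  induction M with
  | zero => simp
  | succ M ih =>
    have h1 := cost_add (k := k) (W := W) hE i (M * T) T (a 0) (a M) (a (M + 1))
    rw [Nat.succ_mul, Finset.sum_range_succ]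
    omega

/-- A cheapest route through `M + 1` slabs of `T` rows: positions at the slab boundaries. -/
theorem exists_slabs (hE : ∃ p q, E p q) (i M T u v : ℕ) :
    ∃ a : ℕ → ℕ, a 0 = u ∧ a (M + 1) = v ∧
      ∑ j ∈ Finset.range (M + 1), cost E k W (i + j * T) T (a j) (a (j + 1)) =
        cost E k W i ((M + 1) * T) u v := by
  induction M generalizing v with
  | zero =>
    refine ⟨fun j => if j = 0 then u else v, by simp, by simp, by simp⟩
  | succ M ih =>
    obtain ⟨w, hw⟩ := exists_mid (k := k) (W := W) hE i ((M + 1) * T) T u v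
    obtain ⟨a, h0, h1, h2⟩ := ih w
    refine ⟨fun j => if j ≤ M + 1 then a j else v, by simp [h0], by simp, ?_⟩
    rw [Finset.sum_range_succ, Nat.succ_mul (M + 1) T, ← hw, ← h2]
    congr 1
    · refine Finset.sum_congr rfl (fun j hj => ?_)
      have hj' := Finset.mem_range.mp hj
      have e1 : j ≤ M + 1 := by omega
      have e2 : j + 1 ≤ M + 1 := by omega
      simp [e1, e2]
    · simp [h1]

/-- A lower bound: `tru` is subadditive and at most the edge costs. -/
theorem tru_le_cost (hE : ∃ p q, E p q) (tru : ℕ → ℕ → ℕ → ℕ → ℕ)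
    (h0 : ∀ i u v, tru i i u v ≤ sd k u v)
    (hadd : ∀ i j l u v w, i ≤ j → j ≤ l → tru i l u w ≤ tru i j u v + tru j l v w)
    (h1 : ∀ i p q, E p q → tru i (i + 1) p q ≤ W i p q) (i m u v : ℕ) :
    tru i (i + m) u v ≤ cost E k W i m u v := by
  induction m generalizing v with
  | zero => simpa using h0 i u v
  | succ m ih =>
    obtain ⟨p, q, hpq, he⟩ := exists_last (k := k) (W := W) hE i m u v
    have e1 := ih p
    have e2 := h1 (i + m) p q hpq
    have e3 := h0 (i + m + 1) q v
    have e4 := hadd i (i + m) (i + m + 1) u p v (by omega) (by omega)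
    have e5 := hadd (i + m) (i + m + 1) (i + m + 1) p q v (by omega) (by omega)
    rw [he, ← Nat.add_assoc i m 1]
    omega

/-- A lower bound for the increase when edges are allowed to be cheaper by `Z` per row. -/
theorem cost_le_add (hE : ∃ p q, E p q) (i m u v Z : ℕ)
    (h : ∀ j < m, ∀ p q, E p q → W (i + j) p q ≤ W' (i + j) p q + Z) :
    cost E k W i m u v ≤ cost E k W' i m u v + m * Z := by
  induction m generalizing v with
  | zero => simp
  | succ m ih =>
    obtain ⟨p, q, hpq, he⟩ := exists_last (k := k) (W := W') hE i m u v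
    have h1 := cost_succ_le (k := k) (W := W) i m u v hpq
    have h2 := ih p (fun j hj => h j (by omega))
    have h3 := h m (by omega) p q hpq
    rw [Nat.succ_mul]
    omega

theorem cost_congr (hE : ∃ p q, E p q) (i m u v : ℕ)
    (h : ∀ j < m, ∀ p q, E p q → W (i + j) p q = W' (i + j) p q) :
    cost E k W i m u v = cost E k W' i m u v :=
  le_antisymm (cost_mono hE i m u v fun j hj p q hpq => (h j hj p q hpq).le)
    (cost_mono hE i m u v fun j hj p q hpq => (h j hj p q hpq).ge)

/-! ### Explicit routes -/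

/-- Price of the explicit route with the edges `r j` in row `i + j`. -/
def rcost (k : ℕ) (W : ℕ → ℕ → ℕ → ℕ) (i : ℕ) (r : ℕ → ℕ × ℕ) (u : ℕ) : ℕ → ℕ → ℕ
  | 0, v => sd k u v
  | m + 1, v => rcost k W i r u m (r m).1 + W (i + m) (r m).1 (r m).2 + sd k (r m).2 v

theorem cost_le_rcost (i m u v : ℕ) (r : ℕ → ℕ × ℕ) (h : ∀ j < m, E (r j).1 (r j).2) :
    cost E k W i m u v ≤ rcost k W i r u m v := by
  induction m generalizing v with
  | zero => simp [rcost]
  | succ m ih =>
    have h1 := cost_succ_le (k := k) (W := W) i m u v (h m (by omega))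
    have h2 := ih (r m).1 (fun j hj => h j (by omega))
    simp only [rcost]
    omega

theorem rcost_congr (i m u v : ℕ) (r r' : ℕ → ℕ × ℕ) (h : ∀ j < m, r j = r' j) :
    rcost k W i r u m v = rcost k W i r' u m v := by
  induction m generalizing v with
  | zero => simp [rcost]
  | succ m ih =>
    simp only [rcost]
    rw [h m (by omega), ih _ (fun j hj => h j (by omega))]

theorem exists_route (hE : ∃ p q, E p q) (i m u v : ℕ) :
    ∃ r : ℕ → ℕ × ℕ, (∀ j, E (r j).1 (r j).2) ∧ rcost k W i r u m v = cost E k W i m u v := by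
  induction m generalizing v with
  | zero =>
    obtain ⟨p, q, h⟩ := hE
    exact ⟨fun _ => (p, q), fun _ => h, by simp [rcost]⟩
  | succ m ih =>
    obtain ⟨p, q, hpq, he⟩ := exists_last (k := k) (W := W) hE i m u v
    obtain ⟨r, hr, hrc⟩ := ih p
    refine ⟨fun j => if j = m then (p, q) else r j, fun j => ?_, ?_⟩
    · dsimp only
      split_ifs
      exacts [hpq, hr j]
    · simp only [rcost, if_true]
      rw [he, ← hrc]
      congr 2
      refine rcost_congr i m u p _ _ (fun j hj => ?_)
      have : j ≠ m := by omega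
      simp [this]

end basic

/-! ### Read sets -/

/-- Edge costs if the cells of `S` are read; the cell of an edge is given by its row and its
starting position. -/
def WS (cell : ℕ → ℕ) (hid vis : ℕ → ℕ → ℕ → ℕ) (S : Finset (ℕ × ℕ)) : ℕ → ℕ → ℕ → ℕ :=
  fun i p q => if (i, cell p) ∈ S then hid i p q else vis i p q

/-- Certified cost of the rows `i, …, i + m - 1` from `u` to `v` if the cells of `S` are read. -/
noncomputable def cs (E : ℕ → ℕ → Prop) (k : ℕ) (cell : ℕ → ℕ) (hid vis : ℕ → ℕ → ℕ → ℕ)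
    (S : Finset (ℕ × ℕ)) (i m u v : ℕ) : ℕ :=
  cost E k (WS cell hid vis S) i m u v

section reads

variable {E : ℕ → ℕ → Prop} {k : ℕ} {cell : ℕ → ℕ} {hid vis : ℕ → ℕ → ℕ → ℕ}

theorem WS_anti (hle : ∀ i p q, E p q → hid i p q ≤ vis i p q) {S S' : Finset (ℕ × ℕ)}
    (hS : S ⊆ S') (i p q : ℕ) (h : E p q) :
    WS cell hid vis S' i p q ≤ WS cell hid vis S i p q := by
  have := hle i p q h
  unfold WS
  split_ifs with h1 h2 h2
  · exact le_rfl
  · exact this
  · exact absurd (hS h2) h1
  · exact le_rfl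

/-- More cells read, less cost. -/
theorem cs_anti (hE : ∃ p q, E p q) (hle : ∀ i p q, E p q → hid i p q ≤ vis i p q)
    {S S' : Finset (ℕ × ℕ)} (hS : S ⊆ S') (i m u v : ℕ) :
    cs E k cell hid vis S' i m u v ≤ cs E k cell hid vis S i m u v :=
  cost_mono hE i m u v fun _ _ p q h => WS_anti hle hS _ p q h

/-- Only the cells in the rows of the slab count. -/
theorem cs_anti' (hE : ∃ p q, E p q) (hle : ∀ i p q, E p q → hid i p q ≤ vis i p q)
    {S S' : Finset (ℕ × ℕ)} (i m u v : ℕ)
    (hS : ∀ c ∈ S, i ≤ c.1 → c.1 < i + m → c ∈ S') :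
    cs E k cell hid vis S' i m u v ≤ cs E k cell hid vis S i m u v := by
  refine cost_mono hE i m u v fun j hj p q h => ?_
  have := hle (i + j) p q h
  unfold WS
  split_ifs with h1 h2 h2
  · exact le_rfl
  · exact this
  · exact absurd (hS _ h2 (by simp) (by simp; omega)) h1
  · exact le_rfl

theorem full_le_cs (hE : ∃ p q, E p q) (hle : ∀ i p q, E p q → hid i p q ≤ vis i p q)
    (S : Finset (ℕ × ℕ)) (i m u v : ℕ) :
    cost E k hid i m u v ≤ cs E k cell hid vis S i m u v := by
  refine cost_mono hE i m u v fun j _ p q h => ?_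
  have := hle (i + j) p q h
  unfold WS
  split_ifs <;> omega

theorem cs_le_vis (hE : ∃ p q, E p q) (hle : ∀ i p q, E p q → hid i p q ≤ vis i p q)
    (S : Finset (ℕ × ℕ)) (i m u v : ℕ) :
    cs E k cell hid vis S i m u v ≤ cost E k vis i m u v := by
  refine cost_mono hE i m u v fun j _ p q h => ?_
  have := hle (i + j) p q h
  unfold WS
  split_ifs <;> omega

theorem cs_empty (hE : ∃ p q, E p q) (i m u v : ℕ) :
    cs E k cell hid vis ∅ i m u v = cost E k vis i m u v :=
  cost_congr hE i m u v fun j _ p q _ => by simp [WS]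

theorem tru_le_cs (hE : ∃ p q, E p q) (tru : ℕ → ℕ → ℕ → ℕ → ℕ)
    (h0 : ∀ i u v, tru i i u v ≤ sd k u v)
    (hadd : ∀ i j l u v w, i ≤ j → j ≤ l → tru i l u w ≤ tru i j u v + tru j l v w)
    (h1 : ∀ i p q, E p q → tru i (i + 1) p q ≤ hid i p q)
    (hle : ∀ i p q, E p q → hid i p q ≤ vis i p q) (S : Finset (ℕ × ℕ)) (i m u v : ℕ) :
    tru i (i + m) u v ≤ cs E k cell hid vis S i m u v :=
  (tru_le_cost hE tru h0 hadd h1 i m u v).trans (full_le_cs hE hle S i m u v)

theorem cs_lip_right (hE : ∃ p q, E p q) (S : Finset (ℕ × ℕ)) (i m u v v' : ℕ) :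
    cs E k cell hid vis S i m u v' ≤ cs E k cell hid vis S i m u v + sd k v v' :=
  cost_lip_right hE i m u v v'

theorem cs_lip_left (hE : ∃ p q, E p q) (S : Finset (ℕ × ℕ)) (i m u u' v : ℕ) :
    cs E k cell hid vis S i m u' v ≤ sd k u' u + cs E k cell hid vis S i m u v :=
  cost_lip_left hE i m u u' v

/-- The inequality behind (H1) and behind the lanes: the `N` parts of the slab, `T` rows each,
are served with the read sets `Si i ⊆ S` between the positions `z i` and `z (i + 1)`. -/
theorem cs_slabs (hE : ∃ p q, E p q) (hle : ∀ i p q, E p q → hid i p q ≤ vis i p q)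
    (S : Finset (ℕ × ℕ)) (Si : ℕ → Finset (ℕ × ℕ)) (t N T : ℕ) (z : ℕ → ℕ)
    (hS : ∀ i < N, Si i ⊆ S) :
    cs E k cell hid vis S (t * (N * T)) (N * T) (z 0) (z N) ≤
      ∑ i ∈ Finset.range N, cs E k cell hid vis (Si i) ((t * N + i) * T) T (z i) (z (i + 1)) := by
  refine (cost_slabs hE (t * (N * T)) N T z).trans (Finset.sum_le_sum fun i hi => ?_)
  have e : (t * N + i) * T = t * (N * T) + i * T := by ring
  rw [e]
  exact cs_anti hE hle (hS i (Finset.mem_range.mp hi)) _ _ _ _

/-- The same with free ends. -/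
theorem cs_slabs' (hE : ∃ p q, E p q) (hle : ∀ i p q, E p q → hid i p q ≤ vis i p q)
    (S : Finset (ℕ × ℕ)) (Si : ℕ → Finset (ℕ × ℕ)) (t N T u v : ℕ) (z : ℕ → ℕ)
    (hS : ∀ i < N, Si i ⊆ S) :
    cs E k cell hid vis S (t * (N * T)) (N * T) u v ≤ sd k u (z 0) +
      ∑ i ∈ Finset.range N, cs E k cell hid vis (Si i) ((t * N + i) * T) T (z i) (z (i + 1)) +
      sd k (z N) v := by
  have h1 := cs_slabs (k := k) (cell := cell) hE hle S Si t N T z hS
  have h2 := cs_lip_left (k := k) (cell := cell) (hid := hid) (vis := vis) hE S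
    (t * (N * T)) (N * T) (z 0) u (z N)
  have h3 := cs_lip_right (k := k) (cell := cell) (hid := hid) (vis := vis) hE S
    (t * (N * T)) (N * T) u (z N) v
  omega

/-- (H1) along a path `x` (position before every row), region of level `j + e` and slab `t`, its
parts = the slabs of level `j` in it. -/
theorem H1 (hE : ∃ p q, E p q) (hle : ∀ i p q, E p q → hid i p q ≤ vis i p q)
    (S : Finset (ℕ × ℕ)) (Si : ℕ → Finset (ℕ × ℕ)) (M j e t : ℕ) (x : ℕ → ℕ)
    (hS : ∀ i < M ^ e, Si i ⊆ S) :
    cs E k cell hid vis S (t * M ^ (j + e)) (M ^ (j + e)) (x (t * M ^ (j + e)))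
        (x ((t + 1) * M ^ (j + e))) ≤
      ∑ i ∈ Finset.range (M ^ e), cs E k cell hid vis (Si i) ((t * M ^ e + i) * M ^ j) (M ^ j)
        (x ((t * M ^ e + i) * M ^ j)) (x ((t * M ^ e + i + 1) * M ^ j)) := by
  have h := cs_slabs (k := k) (cell := cell) hE hle S Si t (M ^ e) (M ^ j)
    (fun i => x ((t * M ^ e + i) * M ^ j)) hS
  have e1 : M ^ (j + e) = M ^ e * M ^ j := by rw [pow_add, mul_comm]
  have e2 : t * (M ^ e * M ^ j) = (t * M ^ e + 0) * M ^ j := by ring
  have e3 : (t + 1) * (M ^ e * M ^ j) = (t * M ^ e + M ^ e) * M ^ j := by ring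
  rw [e1]
  simp only [← add_assoc] at h
  rw [e3]
  conv_lhs => rw [e2]
  rw [e2] at h
  simpa using h

/-- If along the path `x` every row has a mesh edge whose cell is read, of price (with the shifts)
at most `F i`, then the certified cost is at most the sum. -/
theorem cs_le_sum (hE : ∃ p q, E p q) (S : Finset (ℕ × ℕ)) (i m : ℕ) (x F : ℕ → ℕ)
    (h : ∀ j < m, ∃ p q, E p q ∧ (i + j, cell p) ∈ S ∧
      sd k (x (i + j)) p + hid (i + j) p q + sd k q (x (i + j + 1)) ≤ F (i + j)) :
    cs E k cell hid vis S i m (x i) (x (i + m)) ≤ ∑ j ∈ Finset.range m, F (i + j) := by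
  refine cost_le_sum' hE i m (fun j => x (i + j)) (fun j => F (i + j)) (fun j hj => ?_)
  obtain ⟨p, q, hpq, hin, hle⟩ := h j hj
  refine ⟨p, q, hpq, ?_⟩
  simp only [WS, hin, if_true]
  exact hle

end reads

end Vale.Agent.P315.H140
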