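import Vale.Agent.P315.C.Alg
import Vale.Agent.P315.H140.Route

/-!
P315, row C-STR: `best` of `C/Alg.lean` is the value of the dynamic program `cost` of
`H140/Route.lean`; cutting, concatenation, and the price of a given path rounded down to the mesh.
-/

set_option autoImplicit false

namespace Vale.Agent.P315.H140

open C

/-- Admissible edges: mesh points, in range, admissible displacement. -/
def Ed (P : Par) (p q : ℕ) : Prop := P.μ ∣ p ∧ P.μ ∣ q ∧ p ≤ P.B ∧ q ≤ P.B ∧ P.adm p q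

theorem routeOK_iff (P : Par) (m : ℕ) (r : ℕ → ℕ × ℕ) :
    P.RouteOK m r ↔ ∀ i < m, Ed P (r i).1 (r i).2 := Iff.rfl

/-- The two definitions of the price of an explicit route agree. -/
theorem rcost_eq (k : ℕ) (f : ℕ → ℕ → ℕ → ℕ) (i0 m u v : ℕ) (r : ℕ → ℕ × ℕ) :
    C.rcost k m (fun i => f (i0 + i)) u v r = H140.rcost k f i0 r u m v := by
  induction m generalizing v with
  | zero => simp [C.rcost, H140.rcost, prevPos, sd]
  | succ m ih =>
    have h := ih (r m).1
    unfold C.rcost at h ⊢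
    rw [Finset.sum_range_succ]
    simp only [H140.rcost]
    rw [← h]
    simp only [prevPos, sd]
    ring

/-- `best` is the value of the dynamic program. -/
theorem best_eq_cost (P : Par) (f : Leaf) (i0 m u v : ℕ) :
    best P f i0 m u v = cost (Ed P) P.sh f i0 m u v := by
  by_cases hE : ∃ p q, Ed P p q
  · apply le_antisymm
    · obtain ⟨r, hr, he⟩ := exists_route (E := Ed P) (k := P.sh) (W := f) hE i0 m u v
      refine Nat.sInf_le ⟨r, fun i _ => hr i, ?_⟩
      rw [← he, rcost_eq]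
    · have hne : {x | ∃ r, P.RouteOK m r ∧
          x = C.rcost P.sh m (fun i => f (i0 + i)) u v r}.Nonempty := by
        obtain ⟨p, q, h⟩ := hE
        exact ⟨_, fun _ => (p, q), fun _ _ => h, rfl⟩
      obtain ⟨r, hr, he⟩ := Nat.sInf_mem hne
      unfold best
      rw [he, rcost_eq]
      exact cost_le_rcost i0 m u v r hr
  · cases m with
    | zero =>
      rw [cost_zero]
      have : {x | ∃ r : ℕ → ℕ × ℕ, P.RouteOK 0 r ∧
          x = C.rcost P.sh 0 (fun i => f (i0 + i)) u v r} = {sd P.sh u v} := by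
        ext x
        simp only [Set.mem_ofPred_eq, Set.mem_singleton_iff]
        constructor
        · rintro ⟨r, -, rfl⟩
          simp [C.rcost, prevPos, sd]
        · rintro rfl
          exact ⟨fun _ => (0, 0), fun i hi => absurd hi (by omega),
            by simp [C.rcost, prevPos, sd]⟩
      unfold best
      rw [this]
      simp
    | succ m =>
      have e1 : {x | ∃ r, P.RouteOK (m + 1) r ∧
          x = C.rcost P.sh (m + 1) (fun i => f (i0 + i)) u v r} = ∅ := by
        ext x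
        simp only [Set.mem_ofPred_eq, Set.mem_empty_iff_false, iff_false]
        rintro ⟨r, hr, -⟩
        exact hE ⟨_, _, hr m (by omega)⟩
      have e2 : {x | ∃ p q, Ed P p q ∧ x = cost (Ed P) P.sh f i0 m u p + f (i0 + m) p q +
          sd P.sh q v} = ∅ := by
        ext x
        simp only [Set.mem_ofPred_eq, Set.mem_empty_iff_false, iff_false]
        rintro ⟨p, q, h, -⟩
        exact hE ⟨p, q, h⟩
      unfold best
      rw [e1]
      show sInf ∅ = sInf _
      rw [e2]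

theorem cval_eq_cost (P : Par) (vis hid : Leaf) (R : Finset (ℕ × ℕ)) (j i u v : ℕ) :
    cval P vis hid R j i u v =
      cost (Ed P) P.sh (known P vis hid R) (i * P.M ^ j) (P.M ^ j) u v :=
  best_eq_cost P _ _ _ u v

section
variable {P : Par} {f : Leaf}

/-- The recursion of the dynamic program for `best`, last row peeled off. -/
theorem best_succ (i0 m u v : ℕ) :
    best P f i0 (m + 1) u v = sInf {x | ∃ p q, Ed P p q ∧
      x = best P f i0 m u p + f (i0 + m) p q + P.sh * Nat.dist q v} := by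
  simp only [best_eq_cost]
  rfl

@[simp] theorem best_zero (i0 u v : ℕ) : best P f i0 0 u v = P.sh * Nat.dist u v := by
  rw [best_eq_cost]; rfl

theorem best_succ_le (i0 m u v : ℕ) {p q : ℕ} (h : Ed P p q) :
    best P f i0 (m + 1) u v ≤ best P f i0 m u p + f (i0 + m) p q + P.sh * Nat.dist q v := by
  simp only [best_eq_cost]
  exact cost_succ_le i0 m u v h

theorem best_exists_last (hE : ∃ p q, Ed P p q) (i0 m u v : ℕ) :
    ∃ p q, Ed P p q ∧
      best P f i0 (m + 1) u v = best P f i0 m u p + f (i0 + m) p q + P.sh * Nat.dist q v := by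
  simp only [best_eq_cost]
  exact exists_last hE i0 m u v

/-- `best` is attained by a route, with values at every row boundary. -/
theorem best_route (hE : ∃ p q, Ed P p q) (i0 m u v : ℕ) :
    ∃ r : ℕ → ℕ × ℕ, P.RouteOK m r ∧ C.rcost P.sh m (fun i => f (i0 + i)) u v r =
      best P f i0 m u v := by
  obtain ⟨r, hr, he⟩ := exists_route (E := Ed P) (k := P.sh) (W := f) hE i0 m u v
  exact ⟨r, fun i _ => hr i, by rw [rcost_eq, he, best_eq_cost]⟩

theorem best_le_rcost (i0 m u v : ℕ) (r : ℕ → ℕ × ℕ) (hr : P.RouteOK m r) :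
    best P f i0 m u v ≤ C.rcost P.sh m (fun i => f (i0 + i)) u v r := by
  rw [rcost_eq, best_eq_cost]
  exact cost_le_rcost i0 m u v r hr

theorem best_lip_right (hE : ∃ p q, Ed P p q) (i0 m u v v' : ℕ) :
    best P f i0 m u v' ≤ best P f i0 m u v + P.sh * Nat.dist v v' := by
  simp only [best_eq_cost]
  exact cost_lip_right hE i0 m u v v'

theorem best_lip_left (hE : ∃ p q, Ed P p q) (i0 m u u' v : ℕ) :
    best P f i0 m u' v ≤ P.sh * Nat.dist u' u + best P f i0 m u v := by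
  simp only [best_eq_cost]
  exact cost_lip_left hE i0 m u u' v

/-- Concatenation. -/
theorem best_add (hE : ∃ p q, Ed P p q) (i0 m m' u v w : ℕ) :
    best P f i0 (m + m') u w ≤ best P f i0 m u v + best P f (i0 + m) m' v w := by
  simp only [best_eq_cost]
  exact cost_add hE i0 m m' u v w

/-- Cutting at a row boundary. -/
theorem best_mid (hE : ∃ p q, Ed P p q) (i0 m m' u w : ℕ) :
    ∃ v, best P f i0 m u v + best P f (i0 + m) m' v w = best P f i0 (m + m') u w := by
  simp only [best_eq_cost]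
  exact exists_mid hE i0 m m' u w

/-- Concatenation of `N` parts with `T` rows each. -/
theorem best_slabs (hE : ∃ p q, Ed P p q) (i0 N T : ℕ) (a : ℕ → ℕ) :
    best P f i0 (N * T) (a 0) (a N) ≤
      ∑ j ∈ Finset.range N, best P f (i0 + j * T) T (a j) (a (j + 1)) := by
  simp only [best_eq_cost]
  exact cost_slabs hE i0 N T a

/-- Cutting into `N + 1` parts with `T` rows each. -/
theorem best_exists_slabs (hE : ∃ p q, Ed P p q) (i0 N T u v : ℕ) :
    ∃ a : ℕ → ℕ, a 0 = u ∧ a (N + 1) = v ∧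
      ∑ j ∈ Finset.range (N + 1), best P f (i0 + j * T) T (a j) (a (j + 1)) =
        best P f i0 ((N + 1) * T) u v := by
  simp only [best_eq_cost]
  exact exists_slabs hE i0 N T u v

/-- The price of serving the rows of a given path. -/
theorem best_le_sum (hE : ∃ p q, Ed P p q) (i0 m : ℕ) (a F : ℕ → ℕ)
    (h : ∀ i < m, ∃ p q, Ed P p q ∧
      P.sh * Nat.dist (a (i0 + i)) p + f (i0 + i) p q + P.sh * Nat.dist q (a (i0 + i + 1)) ≤
        F (i0 + i)) :
    best P f i0 m (a i0) (a (i0 + m)) ≤ ∑ i ∈ Finset.range m, F (i0 + i) := by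
  rw [best_eq_cost]
  exact cost_le_sum' hE i0 m (fun i => a (i0 + i)) (fun i => F (i0 + i)) h

/-- If every row costs at most `Z` more. -/
theorem best_le_add {f' : Leaf} (hE : ∃ p q, Ed P p q) (i0 m u v Z : ℕ)
    (h : ∀ j < m, ∀ p q, Ed P p q → f (i0 + j) p q ≤ f' (i0 + j) p q + Z) :
    best P f i0 m u v ≤ best P f' i0 m u v + m * Z := by
  simp only [best_eq_cost]
  exact cost_le_add hE i0 m u v Z h

theorem best_mono {f' : Leaf} (hE : ∃ p q, Ed P p q) (i0 m u v : ℕ)
    (h : ∀ j < m, ∀ p q, Ed P p q → f (i0 + j) p q ≤ f' (i0 + j) p q) :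
    best P f i0 m u v ≤ best P f' i0 m u v := by
  simp only [best_eq_cost]
  exact cost_mono hE i0 m u v h

/-- Lower bound by a subadditive function. -/
theorem tru_le_best (hE : ∃ p q, Ed P p q) (tru : ℕ → ℕ → ℕ → ℕ → ℕ)
    (h0 : ∀ i u v, tru i i u v ≤ P.sh * Nat.dist u v)
    (hadd : ∀ i j l u v w, i ≤ j → j ≤ l → tru i l u w ≤ tru i j u v + tru j l v w)
    (h1 : ∀ i p q, Ed P p q → tru i (i + 1) p q ≤ f i p q) (i m u v : ℕ) :
    tru i (i + m) u v ≤ best P f i m u v := by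
  rw [best_eq_cost]
  exact tru_le_cost hE tru h0 hadd h1 i m u v

end

/-! ### The additive geometry: rounding a real path down to the mesh -/

section box
variable {M ℓ μ B J S H : ℕ}

/-- `a` rounded down to a multiple of `μ`. -/
def flr (μ a : ℕ) : ℕ := a / μ * μ

theorem flr_le (μ a : ℕ) : flr μ a ≤ a := Nat.div_mul_le_self a μ

theorem lt_flr_add {μ : ℕ} (hμ : 0 < μ) (a : ℕ) : a < flr μ a + μ := by
  have := Nat.lt_div_mul_add (a := a) hμ
  simpa [flr] using this

theorem dvd_flr (μ a : ℕ) : μ ∣ flr μ a := Dvd.intro_left _ rfl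

theorem flr_mono (μ : ℕ) {a b : ℕ} (h : a ≤ b) : flr μ a ≤ flr μ b :=
  Nat.mul_le_mul_right _ (Nat.div_le_div_right h)

theorem flr_add {μ ℓ : ℕ} (h : μ ∣ ℓ) (a : ℕ) : flr μ (a + ℓ) = flr μ a + ℓ := by
  obtain ⟨c, rfl⟩ := h
  rcases Nat.eq_zero_or_pos μ with rfl | hμ
  · simp [flr]
  · unfold flr
    rw [Nat.add_mul_div_left _ _ hμ]
    ring

theorem flr_div {μ ℓ : ℕ} (h : μ ∣ ℓ) (hμ : 0 < μ) (a : ℕ) : flr μ a / ℓ = a / ℓ := by
  obtain ⟨c, rfl⟩ := h
  unfold flr
  rw [← Nat.div_div_eq_div_mul, ← Nat.div_div_eq_div_mul, Nat.mul_div_cancel _ hμ]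

theorem flr_adm {μ ℓ a b : ℕ} (h : μ ∣ ℓ) (h1 : a ≤ b) (h2 : b ≤ a + ℓ) :
    flr μ a ≤ flr μ b ∧ flr μ b ≤ flr μ a + ℓ :=
  ⟨flr_mono μ h1, (flr_mono μ h2).trans (flr_add h a).le⟩

/-- The mesh edges exist. -/
theorem box_edges : ∃ p q, Ed (boxPar M ℓ μ B J S H) p q :=
  ⟨0, 0, by simp [Ed, boxPar]⟩

/-- Rounding down an admissible step gives a mesh edge. -/
theorem box_Ed_flr (hμℓ : μ ∣ ℓ) {a b : ℕ} (h1 : a ≤ b) (h2 : b ≤ a + ℓ) (hb : b ≤ B) :
    Ed (boxPar M ℓ μ B J S H) (flr μ a) (flr μ b) := by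
  refine ⟨dvd_flr μ a, dvd_flr μ b, ?_, (flr_le μ b).trans hb, flr_adm hμℓ h1 h2⟩
  exact ((flr_le μ a).trans h1).trans hb

/-- Price of a path `a` (position before every row) with row prices `D`, served by a row cost `f`
which is `sh = 2` Lipschitz with respect to the path: error `8 μ` per row. -/
theorem box_best_le (hμ : 0 < μ) (hμℓ : μ ∣ ℓ) (f : Leaf) (i0 m : ℕ) (a D : ℕ → ℕ)
    (hst : ∀ i < m, a (i0 + i) ≤ a (i0 + i + 1) ∧ a (i0 + i + 1) ≤ a (i0 + i) + ℓ ∧
      a (i0 + i + 1) ≤ B)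
    (hf : ∀ i < m, f (i0 + i) (flr μ (a (i0 + i))) (flr μ (a (i0 + i + 1))) ≤
      2 * Nat.dist (a (i0 + i)) (flr μ (a (i0 + i))) + D (i0 + i) +
        2 * Nat.dist (a (i0 + i + 1)) (flr μ (a (i0 + i + 1)))) :
    best (boxPar M ℓ μ B J S H) f i0 m (a i0) (a (i0 + m)) ≤
      ∑ i ∈ Finset.range m, D (i0 + i) + m * (8 * μ) := by
  have key := best_le_sum (P := boxPar M ℓ μ B J S H) (f := f) box_edges i0 m a
    (fun i => D i + 8 * μ) (fun i hi => ?_)
  · refine key.trans ?_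
    rw [Finset.sum_add_distrib]
    simp
  · obtain ⟨h1, h2, h3⟩ := hst i hi
    refine ⟨_, _, box_Ed_flr hμℓ h1 h2 h3, ?_⟩
    have e := hf i hi
    have b1 := flr_le μ (a (i0 + i))
    have b2 := lt_flr_add hμ (a (i0 + i))
    have b3 := flr_le μ (a (i0 + i + 1))
    have b4 := lt_flr_add hμ (a (i0 + i + 1))
    have d1 : Nat.dist (a (i0 + i)) (flr μ (a (i0 + i))) ≤ μ := by
      unfold Nat.dist; omega
    have d2 : Nat.dist (a (i0 + i + 1)) (flr μ (a (i0 + i + 1))) ≤ μ := by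
      unfold Nat.dist; omega
    rw [Nat.dist_comm (flr μ (a (i0 + i + 1))) (a (i0 + i + 1))]
    show 2 * Nat.dist (a (i0 + i)) (flr μ (a (i0 + i))) + _ +
      2 * Nat.dist (a (i0 + i + 1)) (flr μ (a (i0 + i + 1))) ≤ D (i0 + i) + 8 * μ
    omega

/-- Full read along a path: if the cells of the path are in `R`, the certified cost of the slab is
at most the price of the path plus `8 μ` per row. -/
theorem box_cval_le (hμ : 0 < μ) (hμℓ : μ ∣ ℓ) (vis hid : Leaf) (R : Finset (ℕ × ℕ)) (j i : ℕ)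
    (a D : ℕ → ℕ)
    (hst : ∀ τ, i * M ^ j ≤ τ → τ < (i + 1) * M ^ j → a τ ≤ a (τ + 1) ∧ a (τ + 1) ≤ a τ + ℓ ∧
      a (τ + 1) ≤ B)
    (hR : ∀ τ, i * M ^ j ≤ τ → τ < (i + 1) * M ^ j → (τ, a τ / ℓ) ∈ R)
    (hf : ∀ τ, i * M ^ j ≤ τ → τ < (i + 1) * M ^ j →
      hid τ (flr μ (a τ)) (flr μ (a (τ + 1))) ≤
        2 * Nat.dist (a τ) (flr μ (a τ)) + D τ +
          2 * Nat.dist (a (τ + 1)) (flr μ (a (τ + 1)))) :
    cval (boxPar M ℓ μ B J S H) vis hid R j i (a (i * M ^ j)) (a ((i + 1) * M ^ j)) ≤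
      ∑ τ ∈ Finset.range (M ^ j), D (i * M ^ j + τ) + M ^ j * (8 * μ) := by
  have e : (i + 1) * M ^ j = i * M ^ j + M ^ j := by ring
  unfold cval
  rw [e]
  refine box_best_le hμ hμℓ _ (i * M ^ j) (M ^ j) a D (fun τ hτ => ?_) (fun τ hτ => ?_)
  · exact hst (i * M ^ j + τ) (by omega) (by rw [e]; omega)
  · have h1 := hf (i * M ^ j + τ) (by omega) (by rw [e]; omega)
    have h2 := hR (i * M ^ j + τ) (by omega) (by rw [e]; omega)
    have h3 : known (boxPar M ℓ μ B J S H) vis hid R (i * M ^ j + τ)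
        (flr μ (a (i * M ^ j + τ))) (flr μ (a (i * M ^ j + τ + 1))) =
        hid (i * M ^ j + τ) (flr μ (a (i * M ^ j + τ))) (flr μ (a (i * M ^ j + τ + 1))) := by
      unfold known
      rw [if_pos]
      exact ⟨_, h2, flr_div hμℓ hμ _⟩
    rw [h3]
    exact h1

end box

end Vale.Agent.P315.H140
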