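import Vale.Agent.P315.H873.Glue

/-!
P315: the number of random words used never decreases; variants of `solves_of_spec` and
`solves_split` in which only a lower bound for this number is needed.
-/

set_option autoImplicit false

open Finset

namespace Vale.Agent.P315

/-- The number of random words used never decreases. -/
theorem Prog.le_coins (ρ : ℕ → ℕ) (p : Prog) : ∀ s : State, s.coins ≤ (p.run ρ s).coins := by
  induction p with
  | set i e => intro s; exact le_rfl
  | put j e e' => intro s; exact le_rfl
  | rand i => intro s; exact Nat.le_succ _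
  | seq p q ihp ihq => intro s; exact (ihp s).trans (ihq _)
  | ite e p q ihp ihq =>
    intro s
    simp only [Prog.run]
    split_ifs
    · exact ihq s
    · exact ihp s
  | loop i e p ih =>
    intro s
    have key : ∀ m, s.coins ≤
        (s.rounds (fun t s' => p.run ρ (s'.setReg i t)) m).coins := by
      intro m
      induction m with
      | zero => exact le_rfl
      | succ m ihm => exact ihm.trans (ih (State.setReg _ i m))
    exact key _

/-- The number of random words used never decreases. -/
theorem Spec.leCoins {E : Env} {s : State} {p : Prog} {c : ℕ} {Q : State → Prop}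
    (h : Spec E s p c Q) : Spec E s p c (fun s' => s.coins ≤ s'.coins ∧ Q s') := fun hb =>
  ⟨⟨p.le_coins E.ρ s, (h hb).1⟩, (h hb).2⟩

end Vale.Agent.P315

namespace Vale.Agent.P315.H873

open Vale.Agent.P315 Vale.Agent.P315.H731 Vale.Agent.P315.H992

/-- A program with a specification solves the problem, if two thirds of the tapes are good. -/
theorem solves_of_spec_ge {P : Prog} {good : List ℕ → List ℕ → ℕ → Prop} {t : ℕ → ℝ} {c0 S : ℕ}
    (hc0 : 1 ≤ c0) (hS : 100 ≤ S) (T Nc : List ℕ → List ℕ → ℕ)
    (Out : List ℕ → List ℕ → (ℕ → ℕ) → ℕ)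
    (hspec : ∀ (x y : List ℕ) (E : Env), E.R = (max x.length y.length + 2) ^ c0 → E.S = S →
      Spec E (State.init x y) P (T x y)
        (fun s' => Nc x y ≤ s'.coins ∧ s'.reg 2 = Out x y E.ρ))
    (ht : ∀ x y : List ℕ, (T x y : ℝ) ≤ t (max x.length y.length))
    (hgood : ∀ (x y : List ℕ) (b T' : ℕ), (max x.length y.length + 2) ^ (c0 * S + 1) ≤ 2 ^ b →
      Nc x y ≤ T' → 2 * Nat.card (Fin T' → Fin (2 ^ b)) ≤
        3 * Nat.card {ρ : Fin T' → Fin (2 ^ b) // good x y (Out x y (tape ρ))}) :
    Top.Solves P good t (c0 * S + 1) := by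
  apply Top.solves_of_run
  intro x y n b hn hb hsym
  subst hn
  have hN : 0 < 2 ^ b := Nat.pow_pos (by norm_num)
  have hmain : ∀ ρ : ℕ → ℕ, (∀ i, ρ i < 2 ^ b) →
      (Nc x y ≤ (P.run ρ (State.init x y)).coins ∧ P.output ρ x y = Out x y ρ) ∧
      P.time ρ (State.init x y) ≤ T x y ∧ P.top ρ (State.init x y) < 2 ^ b := by
    intro ρ hρ
    have hle : ∀ m : ℕ, m ≤ max x.length y.length →
        m ≤ (max x.length y.length + 2) ^ c0 := by
      intro m hm
      calc m ≤ max x.length y.length + 2 := by omega
        _ = (max x.length y.length + 2) ^ 1 := (pow_one _).symm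
        _ ≤ _ := Nat.pow_le_pow_right (by omega) hc0
    have hbd : Bdd (mkEnv (max x.length y.length) c0 S b ρ hc0 hS hb hρ) (State.init x y) :=
      bdd_init (hle _ (le_max_left _ _)) (hle _ (le_max_right _ _)) hsym
    obtain ⟨h1, -, h3, h4⟩ := hspec x y (mkEnv (max x.length y.length) c0 S b ρ hc0 hS hb hρ)
      rfl rfl hbd
    exact ⟨h1, h3, h4⟩
  refine ⟨fun ρ hρ => ⟨(hmain ρ hρ).2.2, ?_⟩, fun T' hT' => ?_⟩
  · exact (Nat.cast_le.mpr (hmain ρ hρ).2.1).trans (ht x y)
  · have h0 := hT' (fun _ => 0) (fun _ => hN)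
    refine (hgood x y b T' hb ((hmain (fun _ => 0) (fun _ => hN)).1.1.trans h0)).trans
      (le_of_eq ?_)
    have htape : ∀ (ρ : Fin T' → Fin (2 ^ b)) (i : ℕ), tape ρ i < 2 ^ b := by
      intro ρ i
      unfold tape
      split_ifs with h
      · exact (ρ ⟨i, h⟩).isLt
      · exact hN
    congr 1
    refine congrArg Nat.card ?_
    congr 1
    funext ρ
    rw [(hmain (tape ρ) (htape ρ)).1.2]

/-- A program for long strings with a specification whose output is a function of the feed; for
short strings the edit distance is computed exactly. -/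
theorem solves_split_ge {Big : Prog} {good : List ℕ → List ℕ → ℕ → Prop} {t : ℕ → ℝ}
    {n0 c0 S : ℕ} (hn0 : 1 ≤ n0) (hc0 : 2 * n0 + 1 ≤ 2 ^ c0) (hS : 100 ≤ S)
    (T N e : List ℕ → List ℕ → ℕ) (Out : List ℕ → List ℕ → List ℕ → ℕ)
    (hspec : ∀ (x y : List ℕ) (E : Env), n0 ≤ max x.length y.length →
      E.R = (max x.length y.length + 2) ^ c0 → E.S = S →
      Spec E (State.init x y) Big (T x y) (fun s' => N x y ≤ s'.coins ∧
        s'.reg 2 = Out x y (feed E.ρ 0 (e x y) (N x y) x.length y.length)))
    (ht : ∀ x y : List ℕ, n0 ≤ max x.length y.length →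
      ((T x y + 8 : ℕ) : ℝ) ≤ t (max x.length y.length))
    (ht0 : ∀ n : ℕ, n < n0 → ((360 * ((n0 + 1) * (2 * n0 + 1)) + 10 : ℕ) : ℝ) ≤ t n)
    (he : ∀ x y : List ℕ, n0 ≤ max x.length y.length → ∃ j, e x y = 2 ^ j ∧
      2 ^ j ≤ (max x.length y.length + 2) ^ (c0 * S + 1))
    (hgood0 : ∀ x y : List ℕ, good x y (ED x y))
    (hgood : ∀ x y : List ℕ, n0 ≤ max x.length y.length →
      2 * Nat.card (Fin (N x y) → Fin (e x y)) ≤ 3 * Nat.card {c : Fin (N x y) → Fin (e x y) //
        good x y (Out x y (feedL c x.length y.length))}) :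
    Top.Solves (split n0 (small n0) Big) good t (c0 * S + 1) := by
  classical
  have hc0' : 1 ≤ c0 := by
    by_contra h
    obtain rfl : c0 = 0 := by omega
    simp at hc0
    omega
  refine solves_of_spec_ge hc0' hS
    (fun x y => if max x.length y.length < n0 then 360 * ((n0 + 1) * (2 * n0 + 1)) + 10
      else T x y + 8)
    (fun x y => if max x.length y.length < n0 then 0 else N x y)
    (fun x y ρ => if max x.length y.length < n0 then ED x y
      else Out x y (feed ρ 0 (e x y) (N x y) x.length y.length)) ?_ ?_ ?_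
  · intro x y E hR hES
    have hR0 : 2 * n0 + 1 ≤ E.R := by
      rw [hR]
      exact hc0.trans (Nat.pow_le_pow_left (by omega) c0)
    by_cases hlt : max x.length y.length < n0
    · simp only [if_pos hlt]
      refine (split_spec (d := 360 * ((n0 + 1) * (2 * n0 + 1)) + 2) (by omega) (fun _ => ?_)
        (fun h => absurd hlt (by omega))).le (by omega)
      exact (small_spec (by omega) (by omega) hR0).mono le_rfl fun s' h => ⟨Nat.zero_le _, h.2⟩
    · simp only [if_neg hlt]
      refine (split_spec (d := T x y) (by omega) (fun h => absurd h hlt)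
        (fun h => hspec x y E h hR hES)).le (by omega)
  · intro x y
    by_cases hlt : max x.length y.length < n0
    · simp only [if_pos hlt]
      exact ht0 _ hlt
    · simp only [if_neg hlt]
      exact ht x y (by omega)
  · intro x y b T' hb hT'
    by_cases hlt : max x.length y.length < n0
    · simp only [if_pos hlt]
      have : Nat.card {ρ : Fin T' → Fin (2 ^ b) // good x y (ED x y)} =
          Nat.card (Fin T' → Fin (2 ^ b)) := by
        refine Nat.card_congr (Equiv.subtypeUnivEquiv fun _ => hgood0 x y)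
      rw [this]
      omega
    · simp only [if_neg hlt] at hT' ⊢
      obtain ⟨j, hj1, hj2⟩ := he x y (by omega)
      refine feed_two_thirds hT' ?_ (fun l => good x y (Out x y l)) (hgood x y (by omega))
      rw [hj1]
      exact pow_dvd_pow 2 ((Nat.pow_le_pow_iff_right (by norm_num)).mp (hj2.trans hb))

end Vale.Agent.P315.H873
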