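import Vale.Agent.P315.RAM.Oracle
import Vale.Agent.P315.H140.Coins

/-!
P315: the generic one-pass program. From the lengths of the strings: number of bits, parameters,
prefix of the feed; then the seeds; then the oracle loop with a given cell program; then the output.
All functions are polynomial time functions of the library.
-/

set_option autoImplicit false

namespace Vale.Agent.P315.H140

open Vale.Agent.P315 Vale.Agent.P315.RAM
open Vale.Agent.Lib.PolyTime (Word pb pr FP PT Enc enc esize)

variable {E : Env}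

/-! ### The number of bits -/

/-- A number with `n + 3 ≤ 2 ^ bl n`. -/
def bl (n : ℕ) : ℕ := Nat.clog 2 (n + 3)

theorem le_two_pow_bl (n : ℕ) : n + 3 ≤ 2 ^ bl n := Nat.le_pow_clog (by norm_num) _

theorem bl_le (n : ℕ) : bl n ≤ n + 2 := by
  unfold bl
  rw [Nat.clog_le_iff_le_pow (by norm_num)]
  exact Nat.lt_two_pow_self (n := n + 2)

theorem two_pow_bl_le (n : ℕ) : 2 ^ bl n ≤ 2 * (n + 3) := by
  have h : bl n ≠ 0 := by
    intro h
    have := le_two_pow_bl n
    rw [h] at this
    omega
  obtain ⟨c, hc⟩ := Nat.exists_eq_succ_of_ne_zero h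
  have h1 : c < bl n := by omega
  unfold bl at h1
  rw [Nat.lt_clog_iff_pow_lt (by norm_num)] at h1
  rw [hc, pow_succ]
  omega

/-- Put `bl (reg 0 + reg 1)` into register `61`. -/
def bitsProg : Prog :=
  .seq (.set 72 (.lit 1))
  (.seq (.set 61 (.lit 0))
  (.seq (.set 73 (eadd (eadd (.reg 0) (.reg 1)) (.lit 2)))
    (.loop 74 (.reg 73) (.ite (elt (.reg 72) (eadd (.reg 73) (.lit 1)))
      (.seq (.set 72 (emul (.lit 2) (.reg 72))) (.set 61 (eadd (.reg 61) (.lit 1))))
      (.set 74 (.lit 0))))))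

theorem bitsProg_spec (s : State) {lx ly : ℕ} (h0 : s.reg 0 = lx) (h1 : s.reg 1 = ly)
    (hR : 2 * (lx + ly + 3) ≤ E.R) :
    Spec E s bitsProg (12 + (lx + ly + 2) * 16) (fun s' => s'.reg 61 = bl (lx + ly)) := by
  set n := lx + ly with hn
  have hbl := bl_le n
  have hpow := two_pow_bl_le n
  have hblR : bl n ≤ E.R := by omega
  refine (Spec.seq0 2 (2 + (6 + (2 + (n + 2) * (14 + 2)))) (fun s' => s' = s.setReg 72 1) ?_
    ?_).le (by omega)
  · exact Spec.set0 1 rfl rfl (fun _ => by omega) fun _ => rfl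
  rintro s1 - rfl
  refine Spec.seq0 2 (6 + (2 + (n + 2) * (14 + 2)))
    (fun s' => s' = (s.setReg 72 1).setReg 61 0) ?_ ?_
  · exact Spec.set0 0 rfl rfl (fun _ => by omega) fun _ => rfl
  rintro s2 - rfl
  refine Spec.seq0 6 (2 + (n + 2) * (14 + 2))
    (fun s' => s' = ((s.setReg 72 1).setReg 61 0).setReg 73 (n + 2)) ?_ ?_
  · refine Spec.set1 (n + 2) rfl (by simp [Expr.cost, eadd]) ?_ (fun _ => by omega) fun _ => rfl
    simp [h0, h1, hn]
  rintro s3 - rfl
  refine (Spec.loop0 (e := .reg 73) (n + 2) 14 (fun i s' => s'.reg 73 = n + 2 ∧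
    s'.reg 72 = 2 ^ (min i (bl n)) ∧ s'.reg 61 = min i (bl n)) rfl ?_ (fun _ => by omega)
    (fun _ => ?_) ?_).mono (by simp [Expr.cost]) ?_
  · simp
  · simp
  · rintro t ht s' hb - ⟨i1, i2, i3⟩
    refine (Spec.ite0 (e := elt (.reg 72) (eadd (.reg 73) (.lit 1))) (c := 8) rfl
      (fun h => ?_) (fun h => ?_)).le (by simp [Expr.cost, elt, eadd])
    · have hge : bl n ≤ t := by
        by_contra hc
        apply absurd h
        have h2 : min t (bl n) = t := by omega
        have h3 : 2 ^ t < n + 3 := by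
          have : t < bl n := by omega
          unfold bl at this
          rwa [Nat.lt_clog_iff_pow_lt (by norm_num)] at this
        simp [i1, i2, h2]
        omega
      refine Spec.set1 0 rfl (by simp [Expr.cost]) rfl (fun _ => by omega) fun _ => ?_
      have h4 : min (t + 1) (bl n) = min t (bl n) := by omega
      rw [h4]
      simp [i1, i2, i3]
    · have hlt : 2 ^ (min t (bl n)) < n + 3 := by
        by_contra hc
        apply h
        simp [i1, i2]
        omega
      have h2 : t < bl n := by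
        by_contra hc
        have h3 : min t (bl n) = bl n := by omega
        rw [h3] at hlt
        have := le_two_pow_bl n
        omega
      have h3 : min t (bl n) = t := by omega
      have h4 : min (t + 1) (bl n) = t + 1 := by omega
      have h5 : 2 ^ (t + 1) ≤ 2 ^ bl n := Nat.pow_le_pow_right (by norm_num) h2
      rw [h4]
      rw [h3] at i2 i3
      refine Spec.seq0 4 4 (fun s'' => s'' = (s'.setReg 74 t).setReg 72 (2 ^ (t + 1))) ?_ ?_
      · refine Spec.set1 (2 ^ (t + 1)) rfl (by simp [Expr.cost, emul]) ?_ (fun _ => by omega)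
          fun _ => rfl
        simp [i2, pow_succ]
        ring
      rintro s4 - rfl
      refine Spec.set1 (t + 1) rfl (by simp [Expr.cost, eadd]) ?_ (fun _ => by omega)
        fun _ => ?_
      · simp [i3]
      · simp [i1]
  · rintro s' ⟨-, -, h⟩
    rw [h]; omega

theorem bitsProg_wr : bitsProg.wr = [72, 61, 73, 74, 72, 61, 74] := rfl

theorem bitsProg_wa : bitsProg.wa = [] := rfl

/-! ### Reading parameters -/

/-- Compute functions of the memory word and put them into registers. -/
theorem exists_params {α : Type*} [Enc α] (ps : List (ℕ × (α → ℕ)))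
    (hps : ∀ p ∈ ps, PT ∅ p.2) :
    ∃ (W k : ℕ) (P : Lay → ℕ → Prog),
      (∀ L z, (∀ i ∈ (P L z).wr, i = z ∨ i = z + 4 ∨ i = L.c ∨ i = L.B ∨
        (L.r ≤ i ∧ i ≤ L.r + W) ∨ i ∈ ps.map Prod.fst) ∧
        ∀ i ∈ (P L z).wa, L.a ≤ i ∧ i ≤ L.a + W) ∧
      ∀ (L : Lay), L.Ok → ∀ z : ℕ, z + 4 < L.r →
        (∀ p ∈ ps, p.1 ≠ z ∧ p.1 ≠ z + 4 ∧ p.1 ≠ L.c ∧ p.1 ≠ L.B ∧ p.1 < L.r) →
        (ps.map Prod.fst).Nodup → ∀ (E : Env) (σ : State) (a : α),
        Mem σ L a → (esize a + 2) ^ k ≤ E.R → (∀ p ∈ ps, p.2 a ≤ E.R) →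
        Spec E σ (P L z) ((esize a + 2) ^ k)
          (fun σ' => Mem σ' L a ∧ ∀ p ∈ ps, σ'.reg p.1 = p.2 a) := by
  induction ps with
  | nil =>
    refine ⟨0, 2, fun L z => .set z (.lit 0), fun L z => ⟨fun i hi => ?_, fun i hi => ?_⟩, ?_⟩
    · left; simpa [Prog.wr] using hi
    · simp [Prog.wa] at hi
    · intro L hL z hz _ _ E σ a ha hR _
      refine Spec.set1 0 rfl ?_ rfl (fun _ => by omega) fun _ => ⟨?_, fun p hp => by simp at hp⟩
      · have : 2 ≤ esize a + 2 := by omega
        have h2 : 2 ^ 2 ≤ (esize a + 2) ^ 2 := Nat.pow_le_pow_left this 2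
        simp only [Expr.cost]; omega
      · refine ha.congr ?_ rfl
        rw [State.setReg_reg, if_neg (by omega)]
  | cons p ps ih =>
    obtain ⟨W₁, k₁, P, hP, hPs⟩ := ih fun q hq => hps q (List.mem_cons_of_mem _ hq)
    obtain ⟨W₂, k₂, R, hR, hRs⟩ := exists_read (hps p List.mem_cons_self)
    refine ⟨W₁ + W₂, k₁ + k₂ + 2, fun L z => .seq (R L z) (.seq (.set p.1 (.reg z)) (P L z)),
      fun L z => ⟨fun i hi => ?_, fun i hi => ?_⟩, ?_⟩
    · simp only [Prog.wr, List.mem_append, List.mem_singleton] at hi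
      have h1 := (hR L z).1 i
      have h2 := (hP L z).1 i
      simp only [List.map_cons, List.mem_cons]
      rcases hi with hi | hi | hi
      · have := h1 hi; omega
      · subst hi; simp
      · rcases h2 hi with h | h | h | h | h | h
        · omega
        · omega
        · omega
        · omega
        · right; right; right; right; left; omega
        · simp [h]
    · simp only [Prog.wa, List.mem_append, List.not_mem_nil, false_or] at hi
      have h1 := (hR L z).2 i
      have h2 := (hP L z).2 i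
      rcases hi with hi | hi
      · have := h1 hi; omega
      · have := h2 hi; omega
    · intro L hL z hz hz' hnd E σ a ha hRR hpR
      have hnd' : (ps.map Prod.fst).Nodup := (List.nodup_cons.mp hnd).2
      have hpn : p.1 ∉ ps.map Prod.fst := (List.nodup_cons.mp hnd).1
      obtain ⟨z1, z2, z3, z4, z5⟩ := hz' p List.mem_cons_self
      have hb2 : 2 ≤ esize a + 2 := by omega
      have hk1 : (esize a + 2) ^ k₁ ≤ (esize a + 2) ^ (k₁ + k₂) :=
        Nat.pow_le_pow_right (by omega) (by omega)
      have hk2 : (esize a + 2) ^ k₂ ≤ (esize a + 2) ^ (k₁ + k₂) :=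
        Nat.pow_le_pow_right (by omega) (by omega)
      have hk3 : (esize a + 2) ^ (k₁ + k₂) * 4 ≤ (esize a + 2) ^ (k₁ + k₂ + 2) := by
        rw [pow_add (esize a + 2) (k₁ + k₂) 2]
        exact Nat.mul_le_mul_left _ (Nat.pow_le_pow_left hb2 2)
      have hk4 : 1 ≤ (esize a + 2) ^ (k₁ + k₂) := Nat.one_le_pow _ _ (by omega)
      refine (Spec.seq0 ((esize a + 2) ^ k₂) (2 + (esize a + 2) ^ k₁) _
        (hRs L hL z (Or.inr hz) E σ a ha (by omega) (hpR p List.mem_cons_self))
        fun σ1 _ h1 => ?_).le (by omega)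
      refine Spec.seq0 2 ((esize a + 2) ^ k₁) (fun σ' => σ' = σ1.setReg p.1 (p.2 a)) ?_ ?_
      · refine Spec.set0 (p.2 a) rfl h1.2 (fun _ => hpR p List.mem_cons_self) fun _ => rfl
      rintro σ2 - rfl
      have m2 : Mem (σ1.setReg p.1 (p.2 a)) L a := h1.1.congr (by
        rw [State.setReg_reg, if_neg (by omega)]) rfl
      refine ((hPs L hL z hz (fun q hq => hz' q (List.mem_cons_of_mem _ hq)) hnd' E _ a m2
        (by omega) fun q hq => hpR q (List.mem_cons_of_mem _ hq)).withFrame).mono le_rfl ?_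
      rintro σ3 ⟨hf3, m3, r3⟩
      refine ⟨m3, fun q hq => ?_⟩
      rcases List.mem_cons.mp hq with rfl | hq
      · rw [hf3.reg q.1]
        · simp
        · intro hmem
          rcases (hP L z).1 q.1 hmem with h | h | h | h | h | h
          · exact z1 h
          · exact z2 h
          · exact z3 h
          · exact z4 h
          · omega
          · exact hpn h
      · exact r3 q hq

end Vale.Agent.P315.H140
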