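import Vale.Agent.P315.H140.Big
import Vale.Agent.P315.H873.Feed2

/-!
P315: the generic one-pass program, part 2: the seeds, the complete program.
-/

set_option autoImplicit false

namespace Vale.Agent.P315.H140

open Vale.Agent.P315 Vale.Agent.P315.RAM Vale.Agent.P315.H873
open Vale.Agent.Lib.PolyTime (Word pb pr FP PT Enc enc esize)

variable {E : Env}

/-! ### Random words -/

/-- Put a random word modulo register `e` into register `i`; register `r` is scratch. -/
def draw (i r e : ℕ) : Prog :=
  .seq (.rand r) (.seq (.set i (emod (.reg r) (.reg e))) (.set r (.lit 0)))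

/-- The state after `draw`. -/
def drawn (s : State) (i r v : ℕ) : State :=
  { (s.setReg i v).setReg r 0 with coins := s.coins + 1 }

theorem draw_spec {s : State} {i r e Q : ℕ} (hir : i ≠ r) (her : e ≠ r) (he : s.reg e = Q)
    (hQ : 0 < Q) :
    Spec E s (draw i r e) 7 (fun s' => s' = drawn s i r (E.ρ s.coins % Q)) := by
  intro hb
  have hR := E.hR
  have hRN := E.R_lt_N
  have hQR : Q ≤ E.R := by rw [← he]; exact hb.reg e
  have hρ := E.hρ s.coins
  have hmod : E.ρ s.coins % Q < Q := Nat.mod_lt _ hQ
  have er : (draw i r e).run E.ρ s = drawn s i r (E.ρ s.coins % Q) := by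
    have h1 : ((draw i r e).run E.ρ s).reg = (drawn s i r (E.ρ s.coins % Q)).reg := by
      funext k
      by_cases hk : k = r
      · simp [draw, drawn, Prog.run, hk]
      · by_cases hk' : k = i
        · simp [draw, drawn, Prog.run, hk', he, hir, her]
        · simp [draw, drawn, Prog.run, hk, hk']
    have h2 : ((draw i r e).run E.ρ s).arr = (drawn s i r (E.ρ s.coins % Q)).arr := rfl
    have h3 : ((draw i r e).run E.ρ s).coins = (drawn s i r (E.ρ s.coins % Q)).coins := rfl
    cases h4 : (draw i r e).run E.ρ s with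
    | mk a b c =>
      rw [h4] at h1 h2 h3
      cases h5 : drawn s i r (E.ρ s.coins % Q) with
      | mk a' b' c' =>
        rw [h5] at h1 h2 h3
        dsimp only at h1 h2 h3
        subst h1; subst h2; subst h3
        rfl
  refine ⟨er, ?_, ?_, ?_⟩
  · rw [er]
    have hb' : Bdd E ((s.setReg i (E.ρ s.coins % Q)).setReg r 0) :=
      (hb.setReg i (by omega)).setReg r (by omega)
    exact ⟨hb'.reg, hb'.arr, hb'.x, hb'.y⟩
  · simp [draw, Prog.time, Expr.cost, emod]
  · simp only [draw, Prog.top, Expr.top, emod, Prog.run, State.setReg_reg, Op.eval,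
      Expr.eval, he, if_neg her, if_true]
    simp only [max_lt_iff]
    omega

/-- The seeds, newest first. -/
def seedsR (ρ : ℕ → ℕ) (k e : ℕ) : ℕ → List ℕ
  | 0 => []
  | t + 1 => ρ (k + t) % e :: seedsR ρ k e t

theorem seedsR_eq (ρ : ℕ → ℕ) (k e t : ℕ) :
    seedsR ρ k e t = ((List.range t).map fun i => ρ (k + i) % e).reverse := by
  induction t with
  | zero => rfl
  | succ t ih => rw [List.range_succ, List.map_append, List.reverse_append, ← ih]; rfl

theorem reverse_seedsR (ρ : ℕ → ℕ) (k e N : ℕ) (pre : List ℕ) :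
    (seedsR ρ k e N ++ pre.reverse).reverse = feedG ρ k e N pre := by
  rw [seedsR_eq, ← List.reverse_append, List.reverse_reverse]
  rfl

theorem esize_cons (a : ℕ) (l : List ℕ) : esize (a :: l) = 2 * esize a + esize l + 1 := by
  unfold esize
  rw [Vale.Agent.Lib.PolyTime.enc_cons, Vale.Agent.Lib.PolyTime.length_pr]

theorem esize_seedsR {ρ : ℕ → ℕ} {k e m : ℕ} (he : 0 < e) (hem : e ≤ 2 ^ m) (base : List ℕ)
    (t : ℕ) : esize (seedsR ρ k e t ++ base) ≤ t * (2 * m + 1) + esize base := by
  induction t with
  | zero => simp [seedsR]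
  | succ t ih =>
    have h1 : ρ (k + t) % e < 2 ^ m := (Nat.mod_lt _ he).trans_le hem
    have h2 := esize_nat_le h1
    show esize (ρ (k + t) % e :: (seedsR ρ k e t ++ base)) ≤ _
    rw [esize_cons]
    have h3 : (t + 1) * (2 * m + 1) = t * (2 * m + 1) + (2 * m + 1) := by ring
    omega

/-- Push `reg 75` seeds on the memory word: register `71` is the modulus, `72`, `74` scratch,
register `60` the value, `61` the number of bits. -/
def seedsProg (L : Lay) : Prog :=
  .loop 74 (.reg 75) (.seq (draw 60 72 71) (pushNat 60 190 L.a L.r))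

theorem seedsProg_wr {L : Lay} : ∀ i ∈ (seedsProg L).wr,
    i = 74 ∨ i = 72 ∨ i = 60 ∨ (62 ≤ i ∧ i ≤ 64) ∨ i = L.r := by
  intro i hi
  simp [seedsProg, draw, pushNat, splitBits, pushBits, Prog.wr] at hi
  omega

theorem seedsProg_wa {L : Lay} : ∀ i ∈ (seedsProg L).wa, i = 190 ∨ i = L.a := by
  intro i hi
  simp [seedsProg, draw, pushNat, splitBits, pushBits, Prog.wa] at hi
  omega

theorem seeds_spec {L : Lay} (hL : L.Ok) (hr : 75 < L.r) (ha : 190 < L.a) {m e N : ℕ}
    (he : 0 < e) (hem : e ≤ 2 ^ m) (base : List ℕ) (s : State) (h61 : s.reg 61 = m)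
    (h71 : s.reg 71 = e) (h75 : s.reg 75 = N) (hM : Mem s L base)
    (hR : N * (2 * m + 1) + esize base + 2 * m + 1 ≤ E.R) :
    Spec E s (seedsProg L) (2 + N * (41 * m + 29))
      (fun s' => s'.coins = s.coins + N ∧ Mem s' L (seedsR E.ρ s.coins e N ++ base)) := by
  refine (Spec.loop0 (s := s) (e := .reg 75) N (7 + (41 * m + 20))
    (fun t s' => s'.coins = s.coins + t ∧ Mem s' L (seedsR E.ρ s.coins e t ++ base)) rfl h75
    (fun hb => ?_) (fun _ => ⟨rfl, hM⟩) ?_).mono ?_ fun _ h => h
  · rw [← h75]; exact hb.reg 75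
  · rintro t ht s' hb hf ⟨i1, i2⟩
    have g61 : s'.reg 61 = m := by
      rw [hf.reg 61, h61]
      intro h
      simp [draw, pushNat, splitBits, pushBits, Prog.wr] at h
      omega
    have g71 : s'.reg 71 = e := by
      rw [hf.reg 71, h71]
      intro h
      simp [draw, pushNat, splitBits, pushBits, Prog.wr] at h
      omega
    refine Spec.seq0 7 (41 * m + 20) _ (draw_spec (Q := e) (by norm_num) (by norm_num)
      (by simpa using g71) he) ?_
    rintro s2 - rfl
    have hcoins : (s'.setReg 74 t).coins = s.coins + t := i1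
    rw [hcoins]
    set v := E.ρ (s.coins + t) % e with hv
    have hvm : v < 2 ^ m := (Nat.mod_lt _ he).trans_le hem
    have m2 : Mem (drawn (s'.setReg 74 t) 60 72 v) L (seedsR E.ρ s.coins e t ++ base) := by
      refine i2.congr ?_ rfl
      show (((s'.setReg 74 t).setReg 60 v).setReg 72 0).reg L.r = s'.reg L.r
      rw [State.setReg_reg, if_neg (by omega), State.setReg_reg, if_neg (by omega),
        State.setReg_reg, if_neg (by omega)]
    have hsz := esize_seedsR (ρ := E.ρ) (k := s.coins) he hem base t
    have hNt : t * (2 * m + 1) ≤ N * (2 * m + 1) := Nat.mul_le_mul_right _ ht.le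
    have hp := push_spec (E := E) hL (z := 60) (y := 190) (v := v) (m := m) (by norm_num)
      (by omega) (fun i hi => by omega) (drawn (s'.setReg 74 t) 60 72 v)
      (by show (((s'.setReg 74 t).setReg 60 v).setReg 72 0).reg 60 = v
          simp) (by
          show (((s'.setReg 74 t).setReg 60 v).setReg 72 0).reg 61 = m
          simpa using g61) hvm m2 (by omega)
    have hno : (pushNat 60 190 L.a L.r).norand = true := rfl
    refine (hp.withCoins hno).mono le_rfl ?_
    rintro s3 ⟨k1, k2⟩
    refine ⟨?_, ?_⟩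
    · rw [k1]
      show s'.coins + 1 = s.coins + (t + 1)
      omega
    · exact k2
  · simp only [Expr.cost]
    have : 7 + (41 * m + 20) + 2 = 41 * m + 29 := by omega
    rw [this]

end Vale.Agent.P315.H140
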