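import Vale.Agent.P315.H140.NoRand

/-!
P315: the generic one-pass program, part 3: everything together.
-/

set_option autoImplicit false

namespace Vale.Agent.P315.H140

open Vale.Agent.P315 Vale.Agent.P315.RAM Vale.Agent.P315.H873
open Vale.Agent.Lib.PolyTime (Word pb pr FP PT Enc enc esize)

variable {E : Env}

/-! ### Sizes of lists -/

theorem esize_nil : esize ([] : List ℕ) = 0 := rfl

theorem esize_append (l l' : List ℕ) : esize (l ++ l') = esize l + esize l' := by
  induction l with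
  | nil => simp [esize_nil]
  | cons a l ih => rw [List.cons_append, esize_cons, esize_cons, ih]; omega

theorem esize_reverse (l : List ℕ) : esize l.reverse = esize l := by
  induction l with
  | nil => rfl
  | cons a l ih => rw [List.reverse_cons, esize_append, esize_cons, esize_cons, esize_nil, ih]; omega

/-! ### Registers and invariants -/

/-- The registers which may hold parameters. -/
def OkReg (r : ℕ) : Prop := (50 ≤ r ∧ r ≤ 53) ∨ r = 68 ∨ r = 71 ∨ (75 ≤ r ∧ r ≤ 99)

/-- Working registers of the driver. -/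
def WorkReg (i : ℕ) : Prop :=
  i = 60 ∨ (62 ≤ i ∧ i ≤ 66) ∨ (72 ≤ i ∧ i ≤ 74) ∨ i = 100 ∨ i = 101 ∨ 200 ≤ i

/-- The layout. -/
def LL : Lay := ⟨200, 200, 101, 100⟩

theorem LL_ok : LL.Ok := ⟨by norm_num [LL], by norm_num [LL], by norm_num [LL], by norm_num [LL]⟩

/-- The registers of the list hold their parameters. -/
def ParVal (ps : List (ℕ × (List ℕ → ℕ))) (a : List ℕ) (σ : State) : Prop :=
  ∀ p ∈ ps, σ.reg p.1 = p.2 a

/-- The input is intact, register `61` holds the number of bits, and the parameters are in their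
registers. -/
structure Inv (x y : List ℕ) (m : ℕ) (ps : List (ℕ × (List ℕ → ℕ))) (σ : State) : Prop where
  a0 : σ.arr 0 = fun i => x.getD i 0
  a1 : σ.arr 1 = fun i => y.getD i 0
  r0 : σ.reg 0 = x.length
  r1 : σ.reg 1 = y.length
  r61 : σ.reg 61 = m
  par : ParVal ps [x.length, y.length] σ

theorem Inv.of_eq {x y : List ℕ} {m : ℕ} {ps : List (ℕ × (List ℕ → ℕ))} {σ σ' : State}
    (h : Inv x y m ps σ) (hps : ∀ p ∈ ps, OkReg p.1)
    (hr : ∀ i, ¬ WorkReg i → i ≠ 67 → σ'.reg i = σ.reg i)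
    (ha : ∀ j, j < 2 → σ'.arr j = σ.arr j) : Inv x y m ps σ' where
  a0 := by rw [ha 0 (by norm_num), h.a0]
  a1 := by rw [ha 1 (by norm_num), h.a1]
  r0 := by rw [hr 0 (by unfold WorkReg; omega) (by norm_num), h.r0]
  r1 := by rw [hr 1 (by unfold WorkReg; omega) (by norm_num), h.r1]
  r61 := by rw [hr 61 (by unfold WorkReg; omega) (by norm_num), h.r61]
  par := fun p hp => by
    have := hps p hp
    rw [hr p.1 (by unfold WorkReg OkReg at *; omega) (by unfold OkReg at *; omega), h.par p hp]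

theorem Inv.frame {x y : List ℕ} {m : ℕ} {ps : List (ℕ × (List ℕ → ℕ))} {σ σ' : State}
    {wr wa : List ℕ} (h : Inv x y m ps σ) (hps : ∀ p ∈ ps, OkReg p.1) (hf : Frame σ σ' wr wa)
    (hr : ∀ i ∈ wr, WorkReg i ∨ i = 67) (ha : ∀ j ∈ wa, 2 ≤ j) : Inv x y m ps σ' :=
  h.of_eq hps (fun i hi hi' => hf.reg i fun hm => by
    rcases hr i hm with h | h
    · exact hi h
    · exact hi' h) fun j hj => hf.arr j fun hm => by have := ha j hm; omega

theorem Inv.stable {x y : List ℕ} {m : ℕ} {ps : List (ℕ × (List ℕ → ℕ))}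
    (hps : ∀ p ∈ ps, OkReg p.1) (W : ℕ) : Stable LL 60 190 W (Inv x y m ps) := by
  intro σ σ' hr ha h
  refine h.of_eq hps (fun i hi hi' => hr i fun ho => hi ?_) fun j hj => ha j fun ho => ?_
  · unfold OReg LL at ho
    unfold WorkReg
    dsimp only at ho
    omega
  · unfold OArr LL at ho
    dsimp only at ho
    omega

/-- The complete program. -/
def bigProg (c1 : ℕ) (Pp Ppre Pstart R U Cell Pout : Prog) : Prog :=
  .seq bitsProg
  (.seq (.set 61 (emul (.lit c1) (.reg 61)))
  (.seq (.set 200 (.lit 0))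
  (.seq (.set 60 (.reg 1))
  (.seq (pushNat 60 190 200 200)
  (.seq (.set 60 (.reg 0))
  (.seq (pushNat 60 190 200 200)
  (.seq Pp
  (.seq Ppre
  (.seq (seedsProg LL)
  (.seq Pstart
  (.seq (oracleProg LL 60 190 191 R U Cell)
  (.seq Pout
    (.set 2 (.reg 60))))))))))))))

/-- The first phase: number of bits, and the lengths on the memory word. -/
theorem phase1 {c1 : ℕ} {rest : Prog} {Q : State → Prop} {c : ℕ} {x y : List ℕ} {m : ℕ}
    (hm : m = c1 * bl (x.length + y.length)) (hc1 : 1 ≤ c1) (hcR : c1 ≤ E.R)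
    (hR : 2 * (x.length + y.length + 3) ≤ E.R) (hmR : 4 * m + 4 ≤ E.R)
    (h : ∀ σ : State, Inv x y m [] σ → Mem σ LL [x.length, y.length] → σ.coins = 0 →
      Spec E σ rest c Q) :
    Spec E (State.init x y)
      (.seq bitsProg
      (.seq (.set 61 (emul (.lit c1) (.reg 61)))
      (.seq (.set 200 (.lit 0))
      (.seq (.set 60 (.reg 1))
      (.seq (pushNat 60 190 200 200)
      (.seq (.set 60 (.reg 0))
      (.seq (pushNat 60 190 200 200) rest)))))))
      (16 * (x.length + y.length + 2) + (82 * m + 62) + c) Q := by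
  have hbits := le_two_pow_bl (x.length + y.length)
  have hblm : bl (x.length + y.length) ≤ m := by rw [hm]; exact Nat.le_mul_of_pos_left _ hc1
  have hpm : 2 ^ bl (x.length + y.length) ≤ 2 ^ m := Nat.pow_le_pow_right (by norm_num) hblm
  have hxm : x.length < 2 ^ m := by omega
  have hym : y.length < 2 ^ m := by omega
  refine (Spec.seq0 (12 + (x.length + y.length + 2) * 16)
    (4 + (2 + (2 + ((41 * m + 20) + (2 + ((41 * m + 20) + c))))))
    (fun σ => σ.coins = 0 ∧ σ.reg 61 = bl (x.length + y.length))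
    ((bitsProg_spec (State.init x y) rfl rfl hR).withCoins rfl) ?_).le (by omega)
  rintro σ1 hf1 ⟨c1z, b1⟩
  have x1 : σ1.reg 0 = x.length := by rw [hf1.reg 0 (by decide)]; rfl
  have y1 : σ1.reg 1 = y.length := by rw [hf1.reg 1 (by decide)]; rfl
  have ax1 : σ1.arr 0 = fun i => x.getD i 0 := by rw [hf1.arr 0 (by decide)]; rfl
  have ay1 : σ1.arr 1 = fun i => y.getD i 0 := by rw [hf1.arr 1 (by decide)]; rfl
  refine Spec.seq0 4 (2 + (2 + ((41 * m + 20) + (2 + ((41 * m + 20) + c)))))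
    (fun σ => σ = σ1.setReg 61 m) ?_ ?_
  · intro hb
    refine ⟨?_, ?_, ?_, ?_⟩
    · show σ1.setReg 61 (c1 * σ1.reg 61) = _
      rw [b1, ← hm]
    · show Bdd E (σ1.setReg 61 (c1 * σ1.reg 61))
      rw [b1, ← hm]
      exact hb.setReg 61 (by omega)
    · simp [Prog.time, Expr.cost, emul]
    · have hS := E.hS
      refine Expr.top_lt hb _ ⟨hcR, trivial⟩ ?_
      simp only [emul, Expr.cost]; omega
  rintro σ2 - rfl
  refine Spec.seq0 2 (2 + ((41 * m + 20) + (2 + ((41 * m + 20) + c))))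
    (fun σ => σ = (σ1.setReg 61 m).setReg 200 0) ?_ ?_
  · exact Spec.set0 0 rfl rfl (fun _ => by omega) fun _ => rfl
  rintro σ3 - rfl
  refine Spec.seq0 2 ((41 * m + 20) + (2 + ((41 * m + 20) + c)))
    (fun σ => σ = ((σ1.setReg 61 m).setReg 200 0).setReg 60 y.length) ?_ ?_
  · refine Spec.set0 y.length rfl ?_ (fun _ => by omega) fun _ => rfl
    simp [y1]
  rintro σ4 - rfl
  have m0 : Mem (((σ1.setReg 61 m).setReg 200 0).setReg 60 y.length) LL ([] : List ℕ) :=
    ⟨by simp [Vale.Agent.Lib.PolyTime.enc_nil, LL], fun i hi => by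
      simp [Vale.Agent.Lib.PolyTime.enc_nil] at hi⟩
  have no1 : (pushNat 60 190 200 200).norand = true := rfl
  have sz : ∀ v, v < 2 ^ m → esize v ≤ m := fun v hv => esize_nat_le hv
  refine Spec.seq0 (41 * m + 20) (2 + ((41 * m + 20) + c)) _
    ((push_spec (E := E) LL_ok (z := 60) (y := 190) (v := y.length) (m := m) (by norm_num)
      (by norm_num [LL]) (fun i hi => by simp only [LL]; omega) _ (by simp) (by simp) hym m0
      (by rw [esize_nil]; omega)).withCoins no1) ?_
  rintro σ5 hf5 ⟨c5, m5⟩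
  have hw5 : ∀ i ∈ (pushNat 60 190 200 200).wr, i = 200 ∨ (62 ≤ i ∧ i ≤ 64) := by
    intro i hi
    rcases pushNat_wr i hi with h | h <;> omega
  have ha5 : ∀ i ∈ (pushNat 60 190 200 200).wa, i = 190 ∨ i = 200 := fun i hi =>
    pushNat_wa i hi
  have x5 : σ5.reg 0 = x.length := by
    rw [hf5.reg 0 (fun h => by have := hw5 0 h; omega)]; simpa using x1
  have y5 : σ5.reg 1 = y.length := by
    rw [hf5.reg 1 (fun h => by have := hw5 1 h; omega)]; simpa using y1
  have b5 : σ5.reg 61 = m := by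
    rw [hf5.reg 61 (fun h => by have := hw5 61 h; omega)]; simp
  have ax5 : σ5.arr 0 = fun i => x.getD i 0 := by
    rw [hf5.arr 0 (fun h => by have := ha5 0 h; omega)]; simpa using ax1
  have ay5 : σ5.arr 1 = fun i => y.getD i 0 := by
    rw [hf5.arr 1 (fun h => by have := ha5 1 h; omega)]; simpa using ay1
  refine Spec.seq0 2 ((41 * m + 20) + c) (fun σ => σ = σ5.setReg 60 x.length) ?_ ?_
  · refine Spec.set0 x.length rfl ?_ (fun _ => by omega) fun _ => rfl
    simp [x5]
  rintro σ6 - rfl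
  have m6 : Mem (σ5.setReg 60 x.length) LL [y.length] := by
    refine Mem.congr (a := (y.length, ([] : List ℕ))) m5 ?_ rfl
    rw [State.setReg_reg, if_neg (by norm_num [LL])]
  refine Spec.seq0 (41 * m + 20) c _
    ((push_spec (E := E) LL_ok (z := 60) (y := 190) (v := x.length) (m := m) (by norm_num)
      (by norm_num [LL]) (fun i hi => by simp only [LL]; omega) _ (by simp)
      (by simpa using b5) hxm m6 (by
        have := sz _ hym
        rw [esize_cons, esize_nil]; omega)).withCoins no1) ?_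
  rintro σ7 hf7 ⟨c7, m7⟩
  refine h σ7 ⟨?_, ?_, ?_, ?_, ?_, fun p hp => by simp at hp⟩ m7 ?_
  · rw [hf7.arr 0 (fun h => by have := ha5 0 h; omega)]; simpa using ax5
  · rw [hf7.arr 1 (fun h => by have := ha5 1 h; omega)]; simpa using ay5
  · rw [hf7.reg 0 (fun h => by have := hw5 0 h; omega)]; simpa using x5
  · rw [hf7.reg 1 (fun h => by have := hw5 1 h; omega)]; simpa using y5
  · rw [hf7.reg 61 (fun h => by have := hw5 61 h; omega)]; simpa using b5
  · rw [c7]
    show σ5.coins = 0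
    rw [c5]
    exact c1z

theorem small_work {P : Prog} {W : ℕ} (h : Small P LL W) :
    (∀ i ∈ P.wr, WorkReg i) ∧ ∀ j ∈ P.wa, 2 ≤ j := by
  refine ⟨fun i hi => ?_, fun j hj => ?_⟩
  · have := h.wr i hi
    unfold WorkReg
    simp only [LL] at this
    omega
  · have := h.wa j hj
    simp only [LL] at this
    omega

section
variable {α : Type*} [Enc α]

/-- **The generic one-pass program.** The exponent `k` depends only on the strategy
(`start, ask, upd, out`); the prefix `pre` of the feed, the parameters `ps`, the factor `c1` for the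
number of bits and the cell program may be chosen afterwards. -/
theorem exists_big {start : List ℕ → α} {ask : α → ℕ} {upd : ℕ × α → α} {out : α → ℕ}
    (hstart : PT ∅ start) (hask : PT ∅ ask) (hupd : PT ∅ upd) (hout : PT ∅ out) :
    ∃ k : ℕ, ∀ (pre : List ℕ → List ℕ) (ps : List (ℕ × (List ℕ → ℕ))) (c1 : ℕ) (Cell : Prog),
      PT ∅ pre → (∀ p ∈ ps, PT ∅ p.2) → (∀ p ∈ ps, OkReg p.1) → (ps.map Prod.fst).Nodup →
      1 ≤ c1 → 200 ∉ Cell.wr → 200 ∉ Cell.wa →
      ∃ (P : Prog) (k1 : ℕ), ∀ (E : Env) (x y : List ℕ) (m e N Q S ℓ Tc : ℕ) (V : ℕ → Prop)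
        (ans : ℕ → List ℕ),
        m = c1 * bl (x.length + y.length) →
        (∀ σ : State, ParVal ps [x.length, y.length] σ →
          σ.reg 71 = e ∧ σ.reg 75 = N ∧ σ.reg 68 = Q) →
        0 < e → e ≤ 2 ^ m →
        (∀ p ∈ ps, p.2 [x.length, y.length] ≤ E.R) →
        (∀ q, V q → q ≤ E.R ∧ (ans q).length ≤ ℓ ∧ ∀ v ∈ ans q, v < 2 ^ m) →
        (∀ σ q, Inv x y m ps σ → σ.reg 60 = q → V q → Spec E σ Cell Tc (fun σ' =>
          Inv x y m ps σ' ∧ σ'.reg 67 = (ans q).length ∧
          ∀ i, i < (ans q).length → σ'.arr 191 i = (ans q).getD i 0)) →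
        (∀ t, t < Q → V (ask ((oround ask upd ans)^[t]
          (start (feedG E.ρ 0 e N (pre [x.length, y.length])))))) →
        (∀ t, t < Q → ∀ j ≤ (ans (ask ((oround ask upd ans)^[t]
          (start (feedG E.ρ 0 e N (pre [x.length, y.length])))))).length,
          esize (absorb upd ((ans (ask ((oround ask upd ans)^[t]
            (start (feedG E.ρ 0 e N (pre [x.length, y.length])))))).take j)
            ((oround ask upd ans)^[t]
              (start (feedG E.ρ 0 e N (pre [x.length, y.length]))))) ≤ S) →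
        esize ((oround ask upd ans)^[Q]
          (start (feedG E.ρ 0 e N (pre [x.length, y.length])))) ≤ S →
        out ((oround ask upd ans)^[Q]
          (start (feedG E.ρ 0 e N (pre [x.length, y.length])))) ≤ E.R →
        c1 ≤ E.R → 2 * (x.length + y.length + 3) ≤ E.R → (4 * m + 10) ^ k1 ≤ E.R →
        (N * (2 * m + 1) + esize (pre [x.length, y.length]) + S + 2 * m + 10) ^ k ≤ E.R →
        Spec E (State.init x y) P
          (16 * (x.length + y.length + 2) + (4 * m + 10) ^ k1 + N * (41 * m + 29) +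
            Q * (Tc + (ℓ + 1) * (N * (2 * m + 1) + esize (pre [x.length, y.length]) + S +
              2 * m + 10) ^ k) +
            (N * (2 * m + 1) + esize (pre [x.length, y.length]) + S + 2 * m + 10) ^ k)
          (fun σ' => N ≤ σ'.coins ∧ σ'.reg 2 = out ((oround ask upd ans)^[Q]
            (start (feedG E.ρ 0 e N (pre [x.length, y.length]))))) := by
  obtain ⟨Ws, ks, Ps, hPs, hPsS⟩ := exists_apply (α := List ℕ) (β := α)
    (f := fun l => start l.reverse) (hstart.comp
      (Vale.Agent.Lib.PolyTime.PT.reverse Vale.Agent.Lib.PolyTime.PT.id))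
  obtain ⟨Wo, ko, R, U, hR, hU, hOr⟩ := exists_oracle hask hupd
  obtain ⟨Wz, kz, Z, hZ, hZs⟩ := exists_read hout
  refine ⟨ks + ko + kz + 1, fun pre ps c1 Cell hpre hps hok hnd hc1 hCr hCa => ?_⟩
  obtain ⟨Wp, kp, Pp, hPp, hPpn, hPpS⟩ := exists_params_nr ps hps
  obtain ⟨Wr, kr, Pr, hPr, hPrn, hPrS⟩ := exists_apply_nr (α := List ℕ) (β := List ℕ)
    (f := fun l => (pre l).reverse) (Vale.Agent.Lib.PolyTime.PT.reverse hpre)
  refine ⟨bigProg c1 (Pp LL 60) (Pr LL) (Ps LL) (R LL 60) (U LL) Cell (Z LL 60), kp + kr + 3, ?_⟩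
  intro E x y m e N Q S ℓ Tc V ans hm hpar he hem hpR hans hCell hV hS hSQ hoR hcR hxyR hR1 hR2
  set a : List ℕ := [x.length, y.length] with ha
  set F := feedG E.ρ 0 e N (pre a) with hF
  set B := N * (2 * m + 1) + esize (pre a) + S + 2 * m + 10 with hB
  set st := (oround ask upd ans)^[Q] (start F) with hst
  -- sizes
  have hbits := le_two_pow_bl (x.length + y.length)
  have hblm : bl (x.length + y.length) ≤ m := by rw [hm]; exact Nat.le_mul_of_pos_left _ hc1
  have hpm : 2 ^ bl (x.length + y.length) ≤ 2 ^ m := Nat.pow_le_pow_right (by norm_num) hblm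
  have hxs : esize x.length ≤ m := esize_nat_le (by omega)
  have hys : esize y.length ≤ m := esize_nat_le (by omega)
  have hsa : esize a ≤ 4 * m + 2 := by
    rw [ha, esize_cons, esize_cons, esize_nil]; omega
  have hpow : ∀ j, (esize a + 2) ^ j ≤ (4 * m + 10) ^ j := fun j =>
    Nat.pow_le_pow_left (by omega) j
  have hXk : ∀ j, j ≤ kp + kr → (4 * m + 10) ^ j ≤ (4 * m + 10) ^ (kp + kr) := fun j hj =>
    Nat.pow_le_pow_right (by omega) hj
  have hX3 : (4 * m + 10) ^ (kp + kr) * (2 + (82 * m + 100)) ≤ (4 * m + 10) ^ (kp + kr + 3) := by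
    rw [pow_add (4 * m + 10) (kp + kr) 3]
    refine Nat.mul_le_mul_left _ ?_
    have h1 : (4 * m + 10) ^ 3 = (4 * m + 10) * ((4 * m + 10) * (4 * m + 10)) := by ring
    rw [h1]
    have h2 : 10 * (10 * (4 * m + 10)) ≤ (4 * m + 10) * ((4 * m + 10) * (4 * m + 10)) :=
      Nat.mul_le_mul (by omega) (Nat.mul_le_mul (by omega) le_rfl)
    omega
  have hX1 : 1 ≤ (4 * m + 10) ^ (kp + kr) := Nat.one_le_pow _ _ (by omega)
  have hX4 : (82 * m + 100) ≤ (4 * m + 10) ^ (kp + kr) * (82 * m + 100) :=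
    Nat.le_mul_of_pos_left _ (by omega)
  have hX5 : (4 * m + 10) ^ (kp + kr) * (2 + (82 * m + 100)) =
      2 * (4 * m + 10) ^ (kp + kr) + (4 * m + 10) ^ (kp + kr) * (82 * m + 100) := by ring
  have hkp := (hpow kp).trans (hXk kp (by omega))
  have hkr := (hpow kr).trans (hXk kr (by omega))
  have hBk : ∀ j, j ≤ ks + ko + kz → B ^ j ≤ B ^ (ks + ko + kz) := fun j hj =>
    Nat.pow_le_pow_right (by omega) hj
  have hB3 : B ^ (ks + ko + kz) * 10 ≤ B ^ (ks + ko + kz + 1) := by
    rw [pow_succ]; exact Nat.mul_le_mul_left _ (by omega)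
  have hB1 : 1 ≤ B ^ (ks + ko + kz) := Nat.one_le_pow _ _ (by omega)
  have hBle : B ≤ B ^ (ks + ko + kz + 1) := by
    calc B = B ^ 1 := (pow_one _).symm
      _ ≤ _ := Nat.pow_le_pow_right (by omega) (by omega)
  have hmR : 4 * m + 4 ≤ E.R := by omega
  -- phase 1
  refine (phase1 (E := E) (x := x) (y := y) (m := m) (c1 := c1) (c := (4 * m + 10) ^ kp +
    ((4 * m + 10) ^ kr + ((2 + N * (41 * m + 29)) + (B ^ ks + ((2 + Q * (Tc + (ℓ + 1) *
      B ^ ko)) + (B ^ kz + 2)))))) hm hc1 hcR hxyR hmR ?_).le ?_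
  swap
  · have e1 := hXk kp (by omega)
    have e2 := hXk kr (by omega)
    have e3 := hBk ks (by omega)
    have e4 := hBk kz (by omega)
    have e5 : B ^ ko ≤ B ^ (ks + ko + kz + 1) := Nat.pow_le_pow_right (by omega) (by omega)
    have e6 : Q * (Tc + (ℓ + 1) * B ^ ko) ≤ Q * (Tc + (ℓ + 1) * B ^ (ks + ko + kz + 1)) :=
      Nat.mul_le_mul_left _ (Nat.add_le_add_left (Nat.mul_le_mul_left _ e5) _)
    omega
  intro σ hI0 hM0 hc0
  -- parameters
  refine Spec.seq0 _ _ (fun σ' => Mem σ' LL a ∧ ParVal ps a σ' ∧ σ'.coins = 0)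
    (((hPpS LL LL_ok 60 (by norm_num [LL]) (fun p hp => ?_) hnd E σ a hM0 (by omega)
      hpR).withCoins (hPpn LL 60)).mono ((hpow kp)) ?_) ?_
  · have := hok p hp
    unfold OkReg at this
    simp only [LL]
    omega
  · rintro σ' ⟨h1, h2, h3⟩
    exact ⟨h2, h3, h1.trans hc0⟩
  rintro σ1 hf1 ⟨m1, p1, c1'⟩
  have w1 : ∀ i ∈ (Pp LL 60).wr, i = 60 ∨ i = 64 ∨ i = 100 ∨ i = 101 ∨ 200 ≤ i ∨
      i ∈ ps.map Prod.fst := by
    intro i hi
    rcases (hPp LL 60).1 i hi with h | h | h | h | h | h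
    · exact Or.inl h
    · exact Or.inr (Or.inl h)
    · exact Or.inr (Or.inr (Or.inl h))
    · exact Or.inr (Or.inr (Or.inr (Or.inl h)))
    · right; right; right; right; left
      have := h.1
      simpa [LL] using this
    · exact Or.inr (Or.inr (Or.inr (Or.inr (Or.inr h))))
  have wps : ∀ i ∈ ps.map Prod.fst, OkReg i := by
    intro i hi
    obtain ⟨p, hp, rfl⟩ := List.mem_map.mp hi
    exact hok p hp
  have v1 : ∀ j ∈ (Pp LL 60).wa, 200 ≤ j := by
    intro j hj
    have := (hPp LL 60).2 j hj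
    simpa [LL] using this.1
  have I1 : Inv x y m ps σ1 := by
    refine ⟨?_, ?_, ?_, ?_, ?_, p1⟩
    · rw [hf1.arr 0 (fun h => by have := v1 0 h; omega)]; exact hI0.a0
    · rw [hf1.arr 1 (fun h => by have := v1 1 h; omega)]; exact hI0.a1
    · rw [hf1.reg 0]
      · exact hI0.r0
      · intro h
        rcases w1 0 h with h | h | h | h | h | h
        · omega
        · omega
        · omega
        · omega
        · omega
        · have := wps 0 h; unfold OkReg at this; omega
    · rw [hf1.reg 1]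
      · exact hI0.r1
      · intro h
        rcases w1 1 h with h | h | h | h | h | h
        · omega
        · omega
        · omega
        · omega
        · omega
        · have := wps 1 h; unfold OkReg at this; omega
    · rw [hf1.reg 61]
      · exact hI0.r61
      · intro h
        rcases w1 61 h with h | h | h | h | h | h
        · omega
        · omega
        · omega
        · omega
        · omega
        · have := wps 61 h; unfold OkReg at this; omega
  -- prefix
  refine Spec.seq0 _ _ _ (((hPrS LL LL_ok E σ1 a m1 (by omega)).withCoins (hPrn LL)).le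
    (hpow kr)) ?_
  rintro σ2 hf2 ⟨c2, m2⟩
  rw [c1'] at c2
  have I2 : Inv x y m ps σ2 := I1.frame hok hf2 (fun i hi => Or.inl ((small_work (hPr LL)).1 i hi))
    (small_work (hPr LL)).2
  obtain ⟨e71, e75, -⟩ := hpar σ2 I2.par
  -- seeds
  refine Spec.seq0 (2 + N * (41 * m + 29)) _ _ ((seeds_spec (E := E) LL_ok (by norm_num [LL])
    (by norm_num [LL]) he hem _ σ2 I2.r61 e71 e75 m2 (by rw [esize_reverse]; omega))) ?_
  rintro σ3 hf3 ⟨c3, m3⟩
  have I3 : Inv x y m ps σ3 := by
    refine I2.frame hok hf3 (fun i hi => Or.inl ?_) (fun j hj => ?_)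
    · have := seedsProg_wr i hi
      unfold WorkReg
      simp only [LL] at this
      omega
    · have := seedsProg_wa j hj
      simp only [LL] at this
      omega
  rw [c2, Nat.zero_add] at c3
  rw [c2] at m3
  -- start
  have hsF : esize (seedsR E.ρ 0 e N ++ (pre a).reverse) + 2 ≤ B := by
    have := esize_seedsR (ρ := E.ρ) (k := 0) he hem (pre a).reverse N
    rw [esize_reverse] at this
    omega
  have hsFp : ∀ j, (esize (seedsR E.ρ 0 e N ++ (pre a).reverse) + 2) ^ j ≤ B ^ j := fun j =>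
    Nat.pow_le_pow_left hsF j
  refine Spec.seq0 (B ^ ks) _ _ ((((hPsS LL LL_ok E σ3 _ m3 ?_).leCoins).le (hsFp ks))) ?_
  · have := hBk ks (by omega)
    exact ((hsFp ks).trans this).trans (by omega)
  rintro σ4 hf4 ⟨c4, m4⟩
  rw [reverse_seedsR, ← hF] at m4
  have I4 : Inv x y m ps σ4 := I3.frame hok hf4 (fun i hi => Or.inl ((small_work (hPs LL)).1 i hi))
    (small_work (hPs LL)).2
  obtain ⟨-, -, e68⟩ := hpar σ4 I4.par
  -- the oracle loop
  have hPl : Places LL 60 190 191 Wo := ⟨LL_ok, by norm_num [LL], by norm_num [LL], by norm_num,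
    by norm_num [LL], by norm_num, by norm_num [LL], by norm_num⟩
  have hkoR : (S + 2 * m + 10) ^ ko ≤ B ^ ko := Nat.pow_le_pow_left (by omega) ko
  have hkoB := hBk ko (by omega)
  have hor := hOr LL 60 190 191 hPl E (Inv x y m ps) (Inv.stable hok Wo) m S ℓ Tc V ans Cell
    hCr hCa (fun σ h => h.r61) hans hCell (by omega) Q (start F) σ4 I4 m4 e68 hV hS
  refine Spec.seq0 (2 + Q * (Tc + (ℓ + 1) * B ^ ko)) _ _ (hor.leCoins.le ?_) ?_
  · have : (ℓ + 1) * (S + 2 * m + 10) ^ ko ≤ (ℓ + 1) * B ^ ko := Nat.mul_le_mul_left _ hkoR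
    exact Nat.add_le_add_left (Nat.mul_le_mul_left _ (Nat.add_le_add_left this _)) _
  rintro σ5 hf5 ⟨c5, m5, I5⟩
  -- the output
  have hsz : (esize st + 2) ^ kz ≤ B ^ kz := Nat.pow_le_pow_left (by omega) kz
  have hszB := hBk kz (by omega)
  refine Spec.seq0 (B ^ kz) 2 _ (((hZs LL LL_ok 60 (Or.inr (by norm_num [LL])) E σ5 st m5
    (by omega) hoR).leCoins).le hsz) ?_
  rintro σ6 hf6 ⟨c6, m6, r6⟩
  refine Spec.set0 (out st) rfl r6 (fun _ => hoR) fun _ => ⟨?_, ?_⟩
  · show N ≤ σ6.coins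
    omega
  · simp

end

end Vale.Agent.P315.H140
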